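import Vale.Agent.P083.Lp

/-! Factorization through matrices for operators in the algebra of two Cuntz isometries. -/

namespace Vale.Agent.P083

open scoped InnerProductSpace ComplexConjugate Topology
open Filter

variable {H : Type*} [NormedAddCommGroup H] [InnerProductSpace ℂ H] [CompleteSpace H]

theorem form_le {D D' : Type*} [Fintype D] [Fintype D'] {e : D → H} {e' : D' → H}
    (he : Orthonormal ℂ e) (he' : Orthonormal ℂ e') (x : H →L[ℂ] H) (p : D → H) (q : D' → H) :
    ‖∑ μ, ∑ ν, ⟪e μ, x (e' ν)⟫_ℂ * ⟪p μ, q ν⟫_ℂ‖ ≤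
      ‖x‖ * √(∑ μ, ‖p μ‖ ^ 2) * √(∑ ν, ‖q ν‖ ^ 2) := by
  obtain ⟨w, b, -⟩ := exists_hilbertBasis ℂ H
  have k := inner_tsum e e' (fun μ => b.repr (p μ)) (fun μ => b.repr (q μ)) x
  have k1 := norm_tsum he fun μ => b.repr (p μ)
  have k2 := norm_tsum he' fun μ => b.repr (q μ)
  simp only [LinearIsometryEquiv.inner_map_map, LinearIsometryEquiv.norm_map] at k k1 k2
  rw [← k, ← k1, ← k2, Real.sqrt_sq (norm_nonneg _), Real.sqrt_sq (norm_nonneg _), mul_comm ‖x‖,
    mul_assoc]
  refine (norm_inner_le_norm _ _).trans (mul_le_mul_of_nonneg_left ?_ (norm_nonneg _))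
  exact (amp w H x).le_of_opNorm_le (NonUnitalStarAlgHom.norm_apply_le _ x) _

theorem sum_star_sq {D : Type*} {I : Finset D} {P : D → H →L[ℂ] H} {c : ℝ}
    (h : ∑ μ ∈ I, P μ * star (P μ) = (c : ℂ) • 1) (ξ : H) :
    ∑ μ ∈ I, ‖star (P μ) ξ‖ ^ 2 = c * ‖ξ‖ ^ 2 := by
  have := congrArg (ri ξ) (DFunLike.congr_fun h ξ)
  rw [ContinuousLinearMap.sum_apply, ri_sum_right, ContinuousLinearMap.smul_apply, ri_smul_right,
    ContinuousLinearMap.one_apply, ri_self] at this
  rw [← this]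
  exact Finset.sum_congr rfl fun μ _ => by rw [← ri_self, ri, inner_star]; rfl

/-- The factorization map. -/
noncomputable def fac {D : Type*} (e : D → H) (P : D → H →L[ℂ] H) (I J : Finset D)
    (x : H →L[ℂ] H) : H →L[ℂ] H :=
  ∑ μ ∈ I, ∑ ν ∈ J, ⟪e μ, x (e ν)⟫_ℂ • (P μ * star (P ν))

section
variable {D : Type*} {e : D → H} {P : D → H →L[ℂ] H} {I J : Finset D}

theorem norm_fac_le {c d : ℝ} (hc : 0 ≤ c) (hd : 0 ≤ d) (he : Orthonormal ℂ fun μ : I => e μ)
    (he' : Orthonormal ℂ fun μ : J => e μ) (h : ∑ μ ∈ I, P μ * star (P μ) = (c : ℂ) • 1)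
    (h' : ∑ μ ∈ J, P μ * star (P μ) = (d : ℂ) • 1) (x : H →L[ℂ] H) :
    ‖fac e P I J x‖ ≤ ‖x‖ * √c * √d := by
  have k : ∀ ξ η, ‖⟪ξ, fac e P I J x η⟫_ℂ‖ ≤ ‖x‖ * √c * √d * ‖η‖ * ‖ξ‖ := fun ξ η => by
    have := form_le he he' x (fun μ => star (P μ) ξ) fun μ => star (P μ) η
    rw [Finset.sum_coe_sort I fun μ => ‖star (P μ) ξ‖ ^ 2,
      Finset.sum_coe_sort J fun μ => ‖star (P μ) η‖ ^ 2, sum_star_sq h, sum_star_sq h',
      Real.sqrt_mul hc, Real.sqrt_mul hd, Real.sqrt_sq (norm_nonneg _),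
      Real.sqrt_sq (norm_nonneg _), Finset.sum_coe_sort I fun μ =>
        ∑ ν : J, ⟪e μ, x (e ν)⟫_ℂ * ⟪star (P μ) ξ, star (P ν) η⟫_ℂ] at this
    refine le_of_eq_of_le ?_ (this.trans_eq (by ring))
    simp only [fac, ContinuousLinearMap.sum_apply, inner_sum, ContinuousLinearMap.smul_apply,
      inner_smul_right, ContinuousLinearMap.mul_apply, inner_star]
    congr 1
    exact Finset.sum_congr rfl fun μ _ => (Finset.sum_coe_sort J fun ν =>
      ⟪e μ, x (e ν)⟫_ℂ * ⟪ξ, P μ (star (P ν) η)⟫_ℂ).symm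
  refine ContinuousLinearMap.opNorm_le_bound _ (by positivity) fun η => ?_
  have := k (fac e P I J x η) η
  rw [inner_self_eq_norm_sq_to_K, norm_pow, RCLike.norm_ofReal, abs_norm, sq] at this
  rcases (norm_nonneg (fac e P I J x η)).eq_or_lt with r | r
  · rw [← r]; positivity
  · exact le_of_mul_le_mul_right this r

theorem fac_add (x y : H →L[ℂ] H) : fac e P I J (x + y) = fac e P I J x + fac e P I J y := by
  simp [fac, inner_add_right, add_smul, Finset.sum_add_distrib]

theorem fac_sub (x y : H →L[ℂ] H) : fac e P I J (x - y) = fac e P I J x - fac e P I J y := by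
  simp [fac, inner_sub_right, sub_smul, Finset.sum_sub_distrib]

theorem fac_smul (c : ℂ) (x : H →L[ℂ] H) : fac e P I J (c • x) = c • fac e P I J x := by
  simp [fac, inner_smul_right, Finset.smul_sum, mul_smul]

theorem fac_star (x : H →L[ℂ] H) : fac e P I J (star x) = star (fac e P J I x) := by
  simp only [fac, star_sum, star_smul, star_mul, star_star, inner_star']
  rw [Finset.sum_comm]
  refine Finset.sum_congr rfl fun μ _ => Finset.sum_congr rfl fun ν _ => ?_
  rw [← inner_conj_symm]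
  rfl

end

/-- Two Cuntz isometries. -/
structure Cuntz (S : Bool → H →L[ℂ] H) : Prop where
  orth : ∀ i j, star (S i) * S j = if i = j then 1 else 0
  sum : ∑ i, S i * star (S i) = 1

variable {S : Bool → H →L[ℂ] H}

/-- Words. -/
def wd (S : Bool → H →L[ℂ] H) (μ : List Bool) : H →L[ℂ] H := (μ.map S).prod

omit [CompleteSpace H] in
theorem wd_nil : wd S [] = 1 := rfl

omit [CompleteSpace H] in
theorem wd_cons (i : Bool) (μ : List Bool) : wd S (i :: μ) = S i * wd S μ := rfl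

omit [CompleteSpace H] in
theorem wd_append (μ ν : List Bool) : wd S (μ ++ ν) = wd S μ * wd S ν := by simp [wd]

theorem Cuntz.cons (h : Cuntz S) (i j : Bool) (μ ν : List Bool) :
    star (wd S (i :: μ)) * wd S (j :: ν) = if i = j then star (wd S μ) * wd S ν else 0 := by
  rw [wd_cons, wd_cons, star_mul, mul_assoc, ← mul_assoc (star (S i)), h.orth]
  split_ifs <;> simp

theorem Cuntz.iso (h : Cuntz S) (μ : List Bool) : star (wd S μ) * wd S μ = 1 := by
  induction μ with
  | nil => simp [wd_nil]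
  | cons i μ ih => rw [h.cons, if_pos rfl, ih]

theorem Cuntz.zero (h : Cuntz S) (μ ν : List Bool) (h1 : ¬μ <+: ν) (h2 : ¬ν <+: μ) :
    star (wd S μ) * wd S ν = 0 := by
  induction μ generalizing ν with
  | nil => exact absurd List.nil_prefix h1
  | cons i μ ih =>
    cases ν with
    | nil => exact absurd List.nil_prefix h2
    | cons j ν =>
      rw [h.cons]
      split_ifs with e
      · subst e
        exact ih ν (fun r => h1 (List.cons_prefix_cons.2 ⟨rfl, r⟩))
          fun r => h2 (List.cons_prefix_cons.2 ⟨rfl, r⟩)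
      · rfl

def tailWord (N : ℕ) : List Bool := List.replicate N false ++ [true]

theorem tailWord_inj {N : ℕ} {μ ν : List Bool} (hν : ν.length ≤ N)
    (h : μ ++ tailWord N <+: ν ++ tailWord N) : μ = ν := by
  have l : μ.length ≤ ν.length := by simpa using h.length_le
  obtain ⟨ρ, rfl⟩ := List.prefix_of_prefix_length_le ((List.prefix_append _ _).trans h)
    (List.prefix_append _ _) l
  rw [List.append_assoc, List.prefix_append_right_inj] at h
  obtain ⟨t, ht⟩ := h
  rcases ρ with _ | ⟨b, ρ⟩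
  · simp
  · exfalso
    have h1 : (tailWord N ++ t)[N]? = some true := by simp [tailWord]
    simp only [List.length_append, List.length_cons] at hν
    rw [ht, List.getElem?_append_right (by rw [List.length_cons]; omega), tailWord,
      List.getElem?_append_left (by rw [List.length_replicate, List.length_cons]; omega),
      List.getElem?_replicate] at h1
    split_ifs at h1
    simp at h1

/-- The words of a given length. -/
def lay : ℕ → Finset (List Bool)
  | 0 => {[]}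
  | l + 1 => (Finset.univ ×ˢ lay l).map ⟨fun x => x.1 :: x.2, fun _ _ e =>
      Prod.ext (List.cons.inj e).1 (List.cons.inj e).2⟩

theorem lay_len {l : ℕ} {μ : List Bool} (h : μ ∈ lay l) : μ.length = l := by
  induction l generalizing μ with
  | zero => simpa [lay] using h
  | succ l ih =>
    obtain ⟨x, hx, rfl⟩ := Finset.mem_map.1 h
    exact congrArg (· + 1) (ih (Finset.mem_product.1 hx).2)

theorem sum_lay {M : Type*} [AddCommMonoid M] (l : ℕ) (g : List Bool → M) :
    ∑ μ ∈ lay (l + 1), g μ = ∑ i, ∑ μ ∈ lay l, g (i :: μ) := by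
  rw [lay, Finset.sum_map, Finset.sum_product]
  rfl

/-- The words of bounded length. -/
def upto (N : ℕ) : Finset (List Bool) := (Finset.range (N + 1)).biUnion lay

theorem upto_len {N : ℕ} {μ : List Bool} (h : μ ∈ upto N) : μ.length ≤ N := by
  obtain ⟨l, hl, h⟩ := Finset.mem_biUnion.1 h
  rw [lay_len h]
  simpa [Nat.lt_succ_iff] using hl

theorem sum_upto {M : Type*} [AddCommMonoid M] (N : ℕ) (g : List Bool → M) :
    ∑ μ ∈ upto N, g μ = ∑ l ∈ Finset.range (N + 1), ∑ μ ∈ lay l, g μ :=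
  Finset.sum_biUnion fun _ _ _ _ hne => Finset.disjoint_left.2 fun _ h h' =>
    hne ((lay_len h).symm.trans (lay_len h'))

theorem Cuntz.sum_lay (h : Cuntz S) (l : ℕ) :
    ∑ μ ∈ lay l, wd S μ * star (wd S μ) = ((1 : ℝ) : ℂ) • 1 := by
  rw [Complex.ofReal_one, one_smul]
  induction l with
  | zero => simp [lay, wd_nil]
  | succ l ih =>
    rw [P083.sum_lay, ← h.sum]
    refine Finset.sum_congr rfl fun i _ => ?_
    have := congrArg (fun z => S i * z * star (S i)) ih
    simp only [Finset.mul_sum, Finset.sum_mul, mul_one] at this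
    rw [← this]
    simp only [wd_cons, star_mul, mul_assoc]

theorem Cuntz.sum_upto (h : Cuntz S) (N : ℕ) :
    ∑ μ ∈ upto N, wd S μ * star (wd S μ) = ((N + 1 : ℝ) : ℂ) • 1 := by
  rw [P083.sum_upto, Finset.sum_congr rfl fun l _ => h.sum_lay l, Finset.sum_const,
    Finset.card_range, ← Nat.cast_smul_eq_nsmul ℂ, smul_smul]
  simp

/-- The orthonormal vectors. -/
noncomputable def vec (S : Bool → H →L[ℂ] H) (Ω : H) (N : ℕ) (μ : List Bool) : H :=
  wd S (μ ++ tailWord N) Ω

theorem Cuntz.inner_vec (h : Cuntz S) {Ω : H} (hΩ : ‖Ω‖ = 1) {N : ℕ} {μ ν : List Bool}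
    (hμ : μ.length ≤ N) (hν : ν.length ≤ N) :
    ⟪vec S Ω N μ, vec S Ω N ν⟫_ℂ = if μ = ν then 1 else 0 := by
  rw [vec, vec, ← inner_star']
  split_ifs with e
  · rw [e, app_of (h.iso _), ContinuousLinearMap.one_apply, inner_self_eq_norm_sq_to_K, hΩ]
    simp
  · rw [app_of (h.zero _ _ (fun r => e (tailWord_inj hν r)) fun r => e (tailWord_inj hμ r).symm)]
    simp

theorem Cuntz.ortho (h : Cuntz S) {Ω : H} (hΩ : ‖Ω‖ = 1) {N : ℕ} {I : Finset (List Bool)}
    (hI : ∀ μ ∈ I, μ.length ≤ N) : Orthonormal ℂ fun μ : I => vec S Ω N μ :=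
  orthonormal_iff_ite.2 fun μ ν => by
    rw [h.inner_vec hΩ (hI _ μ.2) (hI _ ν.2)]
    simp only [Subtype.ext_iff]

/-- The approximating maps. -/
noncomputable def apx (S : Bool → H →L[ℂ] H) (Ω : H) (N : ℕ) (x : H →L[ℂ] H) : H →L[ℂ] H :=
  (((N + 1 : ℝ)⁻¹ : ℝ) : ℂ) • fac (vec S Ω N) (wd S) (upto N) (upto N) x

theorem Cuntz.apx_one (h : Cuntz S) {Ω : H} (hΩ : ‖Ω‖ = 1) (N : ℕ) : apx S Ω N 1 = 1 := by
  have : fac (vec S Ω N) (wd S) (upto N) (upto N) 1 = ((N + 1 : ℝ) : ℂ) • 1 := by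
    rw [← h.sum_upto]
    refine Finset.sum_congr rfl fun μ hμ => ?_
    rw [Finset.sum_congr rfl fun ν hν => by
      rw [ContinuousLinearMap.one_apply, h.inner_vec hΩ (upto_len hμ) (upto_len hν)]]
    simp [hμ]
  rw [apx, this, smul_smul, ← Complex.ofReal_mul, inv_mul_cancel₀ (by positivity)]
  simp

theorem Cuntz.norm_apx (h : Cuntz S) {Ω : H} (hΩ : ‖Ω‖ = 1) (N : ℕ) (x : H →L[ℂ] H) :
    ‖apx S Ω N x‖ ≤ ‖x‖ := by
  have o := h.ortho hΩ fun μ (hμ : μ ∈ upto N) => upto_len hμ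
  have := norm_fac_le (by positivity) (by positivity) o o (h.sum_upto N) (h.sum_upto N) x
  rw [mul_assoc, Real.mul_self_sqrt (by positivity)] at this
  rw [apx, norm_smul, Complex.norm_real, Real.norm_of_nonneg (by positivity),
    inv_mul_le_iff₀ (by positivity), mul_comm]
  exact this

theorem Cuntz.fac_succ (h : Cuntz S) (Ω : H) (N l : ℕ) (J : Finset (List Bool)) (i : Bool)
    (x : H →L[ℂ] H) : fac (vec S Ω N) (wd S) (lay (l + 1)) J (S i * x) =
      S i * fac (vec S Ω N) (wd S) (lay l) J x := by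
  have e : ∀ j μ v, ⟪vec S Ω N (j :: μ), S i v⟫_ℂ = if j = i then ⟪vec S Ω N μ, v⟫_ℂ else 0 :=
    fun j μ v => by
    rw [vec, List.cons_append, wd_cons, ContinuousLinearMap.mul_apply, ← inner_star',
      app_of (h.orth j i)]
    split_ifs <;> simp [vec]
  rw [fac, P083.sum_lay, Finset.sum_eq_single i (fun j _ hj => by simp [e, hj]) (by simp)]
  simp only [fac, Finset.mul_sum, ContinuousLinearMap.mul_apply, e, if_true, wd_cons,
    mul_smul_comm, mul_assoc]

theorem Cuntz.apx_mul (h : Cuntz S) {Ω : H} (hΩ : ‖Ω‖ = 1) (N : ℕ) (i : Bool) (x : H →L[ℂ] H) :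
    ‖apx S Ω N (S i * x) - S i * apx S Ω N x‖ ≤ (‖S i * x‖ + ‖S i‖ * ‖x‖) * (√(N + 1))⁻¹ := by
  have e : ∀ y, fac (vec S Ω N) (wd S) (upto N) (upto N) y =
      ∑ l ∈ Finset.range (N + 1), fac (vec S Ω N) (wd S) (lay l) (upto N) y := fun y =>
    P083.sum_upto N _
  have b : ∀ l ≤ N, ∀ y, ‖fac (vec S Ω N) (wd S) (lay l) (upto N) y‖ ≤ ‖y‖ * √(N + 1) :=
    fun l hl y => by
    simpa using norm_fac_le zero_le_one (by positivity)
      (h.ortho hΩ fun μ hμ => (lay_len hμ).trans_le hl) (h.ortho hΩ fun μ hμ => upto_len hμ)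
      (h.sum_lay l) (h.sum_upto N) y
  have p : 0 < √((N : ℝ) + 1) := by positivity
  rw [apx, apx, mul_smul_comm, ← smul_sub, e, e, Finset.sum_range_succ', Finset.sum_range_succ,
    mul_add, Finset.mul_sum, Finset.sum_congr rfl fun l _ => h.fac_succ Ω N l (upto N) i x,
    add_sub_add_left_eq_sub, norm_smul, Complex.norm_real, Real.norm_of_nonneg (by positivity),
    inv_mul_le_iff₀ (by positivity)]
  refine (norm_sub_le _ _).trans ((add_le_add (b 0 N.zero_le _) ((norm_mul_le _ _).trans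
    (mul_le_mul_of_nonneg_left (b N le_rfl _) (norm_nonneg _)))).trans_eq ?_)
  rw [← Real.mul_self_sqrt (show 0 ≤ (N : ℝ) + 1 by positivity), Real.sqrt_mul_self p.le]
  field_simp

theorem Cuntz.tendsto (h : Cuntz S) {Ω : H} (hΩ : ‖Ω‖ = 1) {x : H →L[ℂ] H}
    (hx : x ∈ (StarAlgebra.adjoin ℂ (Set.range S)).topologicalClosure) :
    Tendsto (fun N => apx S Ω N x) atTop (𝓝 x) := by
  let G : Submodule ℂ (H →L[ℂ] H) :=
    { carrier := {x | Tendsto (fun N => apx S Ω N x) atTop (𝓝 x)}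
      add_mem' := fun ha hb => by simpa [apx, fac_add] using Tendsto.add ha hb
      zero_mem' := by simp [apx, fac]
      smul_mem' := fun c a ha => by
        simpa [apx, fac_smul, smul_comm c] using Tendsto.const_smul ha c }
  have g1 : ∀ i, ∀ y ∈ G, S i * y ∈ G := fun i y hy => by
    have t : Tendsto (fun N : ℕ => (‖S i * y‖ + ‖S i‖ * ‖y‖) * (√(N + 1))⁻¹) atTop (𝓝 0) := by
      simpa using ((Real.tendsto_sqrt_atTop.comp (tendsto_atTop_add_const_right _ 1
        tendsto_natCast_atTop_atTop)).inv_tendsto_atTop).const_mul (‖S i * y‖ + ‖S i‖ * ‖y‖)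
    change Tendsto _ _ _
    simpa using (squeeze_zero_norm (fun N => h.apx_mul hΩ N i y) t).add
      (Tendsto.const_mul (S i) hy)
  have g2 : ∀ y ∈ G, star y ∈ G := fun y hy => by
    change Tendsto _ _ _
    simpa [apx, fac_star] using Tendsto.star hy
  have g3 : ∀ μ, ∀ y ∈ G, wd S μ * y ∈ G := fun μ y hy => by
    induction μ with
    | nil => rwa [wd_nil, one_mul]
    | cons i μ ih => rw [wd_cons, mul_assoc]; exact g1 i _ ih
  have g4 : (1 : H →L[ℂ] H) ∈ G := by
    change Tendsto _ _ _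
    simp [h.apx_one hΩ]
  let W := Submodule.span ℂ (Set.range fun z : List Bool × List Bool => wd S z.1 * star (wd S z.2))
  have w1 : W ≤ G := Submodule.span_le.2 (by
    rintro _ ⟨z, rfl⟩
    exact g3 _ _ (g2 _ (mul_one (wd S z.2) ▸ g3 _ _ g4)))
  have w2 : ∀ a, (∀ α β, a * (wd S α * star (wd S β)) ∈ W) → ∀ y ∈ W, a * y ∈ W :=
    fun a ha y hy => by
    induction hy using Submodule.span_induction with
    | mem y hy => obtain ⟨z, rfl⟩ := hy; exact ha _ _
    | zero => simp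
    | add y z _ _ hy hz => rw [mul_add]; exact W.add_mem hy hz
    | smul c y _ hy => rw [mul_smul_comm]; exact W.smul_mem c hy
  have w3 : ∀ a ∈ StarAlgebra.adjoin ℂ (Set.range S),
      (∀ y ∈ W, a * y ∈ W) ∧ ∀ y ∈ W, star a * y ∈ W := fun a ha => by
    induction ha using StarAlgebra.adjoin_induction with
    | mem a ha =>
      obtain ⟨i, rfl⟩ := ha
      refine ⟨w2 _ fun α β => Submodule.subset_span ⟨(i :: α, β), mul_assoc _ _ _⟩,
        w2 _ fun α β => ?_⟩
      rcases α with _ | ⟨j, α⟩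
      · exact Submodule.subset_span ⟨([], β ++ [i]), by simp [wd]⟩
      · rw [wd_cons, mul_assoc, ← mul_assoc, h.orth]
        split_ifs
        · exact Submodule.subset_span ⟨(α, β), (one_mul _).symm⟩
        · simp
    | algebraMap c =>
      refine ⟨fun y hy => ?_, fun y hy => ?_⟩
      · rw [← Algebra.smul_def]; exact W.smul_mem _ hy
      · rw [← algebraMap_star_comm, ← Algebra.smul_def]; exact W.smul_mem _ hy
    | add a b _ _ ha hb =>
      exact ⟨fun y hy => by rw [add_mul]; exact W.add_mem (ha.1 y hy) (hb.1 y hy),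
        fun y hy => by rw [star_add, add_mul]; exact W.add_mem (ha.2 y hy) (hb.2 y hy)⟩
    | mul a b _ _ ha hb =>
      exact ⟨fun y hy => by rw [mul_assoc]; exact ha.1 _ (hb.1 y hy),
        fun y hy => by rw [star_mul, mul_assoc]; exact hb.2 _ (ha.2 y hy)⟩
    | star a _ ha => exact ⟨ha.2, by rw [star_star]; exact ha.1⟩
  refine Metric.tendsto_atTop.2 fun ε hε => ?_
  obtain ⟨y, hy, hxy⟩ := Metric.mem_closure_iff.1 hx (ε / 3) (by positivity)
  have hy' : y ∈ G := w1 (mul_one y ▸ (w3 y hy).1 1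
    (Submodule.subset_span ⟨([], []), by simp [wd]⟩))
  obtain ⟨M, hM⟩ := Metric.tendsto_atTop.1 hy' (ε / 3) (by positivity)
  refine ⟨M, fun N hN => ?_⟩
  have a1 := h.norm_apx hΩ N (x - y)
  have a2 := hM N hN
  rw [show apx S Ω N (x - y) = apx S Ω N x - apx S Ω N y by simp [apx, fac_sub, smul_sub],
    ← dist_eq_norm, ← dist_eq_norm] at a1
  have := dist_triangle4 (apx S Ω N x) (apx S Ω N y) y x
  rw [dist_comm y x] at this
  linarith

theorem Cuntz.cpap (h : Cuntz S) {Ω : H} (hΩ : ‖Ω‖ = 1) {u : Fin 4 → H →L[ℂ] H}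
    (hu : ∀ s, u s ∈ (StarAlgebra.adjoin ℂ (Set.range S)).topologicalClosure) {δ : ℝ}
    (hδ : 0 < δ) : ∃ (D : Type) (_ : Fintype D) (e : D → H) (V : D → H →L[ℂ] H) (c : ℝ),
      0 < c ∧ Orthonormal ℂ e ∧ ∑ μ, V μ * star (V μ) = (c : ℂ) • 1 ∧
        ∀ s, ‖fac e V Finset.univ Finset.univ (u s) - (c : ℂ) • u s‖ ≤ c * δ := by
  obtain ⟨N, hN⟩ := (eventually_all.2 fun s =>
    Metric.tendsto_nhds.1 (h.tendsto hΩ (hu s)) δ hδ).exists
  refine ⟨upto N, inferInstance, fun μ => vec S Ω N μ, fun μ => wd S μ, N + 1, by positivity,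
    h.ortho hΩ fun _ => upto_len, ?_, fun s => ?_⟩
  · rw [Finset.sum_coe_sort (upto N) fun μ => wd S μ * star (wd S μ), h.sum_upto]
  · have e : fac (fun μ : upto N => vec S Ω N μ) (fun μ => wd S μ) Finset.univ Finset.univ (u s) =
        ((N + 1 : ℝ) : ℂ) • apx S Ω N (u s) := by
      rw [apx, smul_smul, ← Complex.ofReal_mul, mul_inv_cancel₀ (by positivity),
        Complex.ofReal_one, one_smul, fac, fac, ← Finset.sum_coe_sort (upto N)]
      exact Finset.sum_congr rfl fun μ _ => Finset.sum_coe_sort (upto N) fun ν =>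
        ⟪vec S Ω N μ, u s (vec S Ω N ν)⟫_ℂ • (wd S μ * star (wd S ν))
    rw [e, ← smul_sub, norm_smul, Complex.norm_real, Real.norm_of_nonneg (by positivity),
      ← dist_eq_norm]
    exact mul_le_mul_of_nonneg_left (hN s).le (by positivity)

end Vale.Agent.P083
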