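import Mathlib

/-! The norm ultrapower of a unital C*-algebra, as a star algebra. -/

namespace Vale.Agent.P083

open Filter
open scoped ENNReal Topology

variable (ω : Ultrafilter ℕ) (B : Type*) [CStarAlgebra B] [Nontrivial B]

/-- The algebra of norm bounded sequences. -/
abbrev Linf (B : Type*) [CStarAlgebra B] : Type _ := lp (fun _ : ℕ => B) ∞

/-- The ideal of bounded sequences whose norms tend to zero along the ultrafilter. -/
def nullIdeal : Ideal (Linf B) where
  carrier := {b | Tendsto (fun n => ‖b n‖) ω (𝓝 0)}
  add_mem' {a b} ha hb := squeeze_zero (fun _ => norm_nonneg _) (fun n => norm_add_le (a n) (b n))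
    (by simpa using Tendsto.add ha hb)
  zero_mem' := by simp
  smul_mem' a b hb := squeeze_zero (fun _ => norm_nonneg _)
    (fun n => (norm_mul_le (a n) (b n)).trans (mul_le_mul_of_nonneg_right
      (lp.norm_apply_le_norm ENNReal.top_ne_zero a n) (norm_nonneg _)))
    (by simpa using Tendsto.const_mul ‖a‖ hb)

instance : (nullIdeal ω B).IsTwoSided where
  mul_mem_of_left {a} b ha := squeeze_zero (fun _ => norm_nonneg _)
    (fun n => (norm_mul_le (a n) (b n)).trans (mul_le_mul_of_nonneg_left
      (lp.norm_apply_le_norm ENNReal.top_ne_zero b n) (norm_nonneg _)))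
    (by simpa using Tendsto.mul_const ‖b‖ ha)

/-- The norm ultrapower: bounded sequences modulo null sequences. -/
abbrev Ultrapower : Type _ := Linf B ⧸ nullIdeal ω B

/-- The adjoint of the class of a sequence is the class of the sequence of adjoints. -/
noncomputable instance : Star (Ultrapower ω B) where
  star := Quotient.map' star fun a b h => by
    rw [Submodule.quotientRel_def] at h ⊢
    rw [← star_sub]
    exact Tendsto.congr (fun n => (norm_star ((a - b) n)).symm) h

end Vale.Agent.P083
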