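import Vale.Agent.P083.Grp
import Vale.Agent.P083.CPAP

/-! The finite dimensional obstruction. -/

namespace Vale.Agent.P083

open scoped InnerProductSpace ComplexConjugate

variable {H : Type*} [NormedAddCommGroup H] [InnerProductSpace ℂ H]

theorem schmidt {I D : Type*} [Fintype D] {e : D → H} (he : Orthonormal ℂ e) (x : D → L2 I ℂ) :
    ∃ (f : D → H) (r : D → L2 I ℂ), Orthonormal ℂ f ∧ (∀ i j, i ≠ j → ⟪r i, r j⟫_ℂ = 0) ∧
      ∑ μ, tens (e μ) (x μ) = ∑ μ, tens (f μ) (r μ) := by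
  classical
  have hA := Matrix.isHermitian_gram ℂ x
  have ob := orthonormal_iff_ite.1 hA.eigenvectorBasis.orthonormal
  refine ⟨fun i => ∑ μ, conj (hA.eigenvectorBasis i μ) • e μ,
    fun i => ∑ μ, hA.eigenvectorBasis i μ • x μ, orthonormal_iff_ite.2 fun i j => ?_,
    fun i j hij => ?_, ?_⟩
  · rw [he.inner_sum, if_congr eq_comm rfl rfl, ← ob, PiLp.inner_apply]
    simp
  · rw [← Matrix.star_dotProduct_gram_mulVec, hA.mulVec_eigenvectorBasis, dotProduct_smul,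
      dotProduct_comm, ← EuclideanSpace.inner_eq_star_dotProduct, ob, if_neg hij, smul_zero]
  · have k : ∀ μ ν, ∑ i, hA.eigenvectorBasis i μ * conj (hA.eigenvectorBasis i ν) =
        if μ = ν then 1 else 0 := fun μ ν => by
      simpa [EuclideanSpace.inner_single_left, EuclideanSpace.inner_single_right,
        Pi.single_apply, eq_comm] using hA.eigenvectorBasis.sum_inner_mul_inner
        (EuclideanSpace.single μ 1) (EuclideanSpace.single ν 1)
    generalize hA.eigenvectorBasis = b at *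
    ext χ
    simp only [lp.coeFn_sum, Finset.sum_apply, tens_apply, lp.coeFn_smul, Pi.smul_apply,
      Finset.smul_sum, Finset.sum_smul, smul_smul, smul_eq_mul]
    rw [Finset.sum_comm]
    refine Finset.sum_congr rfl fun ν _ => ?_
    rw [← Finset.sum_smul]
    congr 1
    simp only [Finset.sum_mul]
    rw [Finset.sum_comm, Finset.sum_congr rfl fun μ _ => show
      ∑ i, b i μ * x μ χ * conj (b i ν) = (if μ = ν then 1 else 0) * x μ χ by
        rw [← k, Finset.sum_mul]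
        exact Finset.sum_congr rfl fun _ _ => by ring]
    simp

theorem amgm {a w s t : ℝ} (hs : 0 ≤ s) (ht : 0 ≤ t) (hw : w ≤ s * t) (hw0 : 0 ≤ w) :
    2 * (a * w) ≤ (s ^ 2 * a ^ 2 / 2 + t ^ 2 * a ^ 2 / 2) + s⁻¹ * (t⁻¹ * w ^ 2) := by
  rcases (mul_nonneg hs ht).eq_or_lt with h | h
  · have : w = 0 := by linarith
    rw [this]
    simp only [mul_zero, ne_eq, OfNat.ofNat_ne_zero, not_false_eq_true, zero_pow, add_zero]
    positivity
  · obtain ⟨v, rfl⟩ : ∃ v, w = s * t * v := ⟨w / (s * t), (mul_div_cancel₀ w h.ne').symm⟩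
    have e : s⁻¹ * (t⁻¹ * (s * t * v) ^ 2) = s * t * v ^ 2 := by
      have := (mul_ne_zero_iff.1 h.ne').1
      have := (mul_ne_zero_iff.1 h.ne').2
      field_simp
    rw [e]
    nlinarith [mul_nonneg h.le (sq_nonneg (a - v)), mul_nonneg (sq_nonneg (s - t)) (sq_nonneg a)]

variable [CompleteSpace H]

theorem kernel {I D : Type*} [Fintype D] {e : D → H} (he : Orthonormal ℂ e) (x : D → L2 I ℂ)
    (hx : ∀ χ, ‖(∑ μ, tens (e μ) (x μ)) χ‖ ≤ 1) :
    ∃ R : L2 (I × I) ℂ, ‖R‖ ^ 2 = ‖∑ μ, tens (e μ) (x μ)‖ ^ 2 ∧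
      ‖proj ℂ (fun z => z.1 = z.2) R‖ ^ 2 ≤ Fintype.card D ∧
      ∀ (u : H →L[ℂ] H) (g : Mon I), 2 * ri (∑ μ, tens (e μ) (x μ))
        (amp I H u (op H g (∑ μ, tens (e μ) (x μ)))) ≤
          ‖u‖ ^ 2 * ‖R‖ ^ 2 + ri R (op ℂ (ad g) R) := by
  classical
  obtain ⟨f, r, hf, hr, h⟩ := schmidt he x
  rw [h] at hx ⊢
  have k : ∀ g : Mon I, ri (∑ i, ((‖r i‖⁻¹ : ℝ) : ℂ) • tens2 (r i) (r i))
      (op ℂ (ad g) (∑ i, ((‖r i‖⁻¹ : ℝ) : ℂ) • tens2 (r i) (r i))) =
      ∑ i, ∑ j, ‖r i‖⁻¹ * (‖r j‖⁻¹ * ‖⟪r i, op ℂ g (r j)⟫_ℂ‖ ^ 2) := fun g => by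
    simp only [map_sum, map_smul, op_tens2, ri_sum_left]
    simp only [ri_sum_right, ri_smul_left, ri_smul_right, Finset.mul_sum]
    refine Finset.sum_congr rfl fun i _ => Finset.sum_congr rfl fun j _ => ?_
    rw [ri, inner_tens2, ← inner_conj_symm (op ℂ g (r j)), Complex.mul_conj, Complex.ofReal_re,
      Complex.normSq_eq_norm_sq, mul_left_comm]
  have n : ‖∑ i, ((‖r i‖⁻¹ : ℝ) : ℂ) • tens2 (r i) (r i)‖ ^ 2 = ∑ i, ‖r i‖ ^ 2 := by
    have := k 1
    rw [map_one, map_one, map_one, ContinuousLinearMap.one_apply, ri_self] at this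
    rw [this]
    refine Finset.sum_congr rfl fun i _ => ?_
    rw [Finset.sum_eq_single i (fun j _ hj => by simp [hr i j hj.symm]) (by simp),
      ContinuousLinearMap.one_apply, inner_self_eq_norm_sq_to_K, norm_pow, RCLike.norm_ofReal,
      abs_norm]
    rcases eq_or_ne ‖r i‖ 0 with h0 | h0
    · simp [h0]
    · field_simp
  refine ⟨_, n.trans (norm_tsum hf r).symm, ?_, fun u g => ?_⟩
  · have hi : Function.Injective fun χ : I => (χ, χ) := fun _ _ e => (Prod.ext_iff.1 e).1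
    refine (hasSum_le (fun χ => ?_) ((hi.hasSum_iff fun z hz => ?_).2 (hasSum_sq _))
      (hasSum_sum fun i (_ : i ∈ Finset.univ) => (hasSum_sq (r i)).mul_left (‖r i‖⁻¹ ^ 2))).trans ?_
    · have a1 : ∑ i, ‖r i χ‖ ^ 2 ≤ 1 := by
        have := hf.sum_inner_products_le (s := Finset.univ) ((∑ μ, tens (f μ) (r μ)) χ)
        refine le_trans (le_of_eq_of_le ?_ this) (pow_le_one₀ (norm_nonneg _) (hx χ))
        simp only [lp.coeFn_sum, Finset.sum_apply, tens_apply, hf.inner_right_fintype]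
      have a2 : ‖(∑ i, ((‖r i‖⁻¹ : ℝ) : ℂ) • tens2 (r i) (r i)) (χ, χ)‖ ≤
          ∑ i, ‖r i χ‖ * (‖r i‖⁻¹ * ‖r i χ‖) := by
        simp only [lp.coeFn_sum, Finset.sum_apply, lp.coeFn_smul, Pi.smul_apply, tens2_apply]
        refine norm_sum_le_of_le _ fun i _ => le_of_eq ?_
        simp [mul_left_comm]
      simp only [Function.comp_apply, proj_apply, if_true]
      refine (pow_le_pow_left₀ (norm_nonneg _) a2 2).trans
        ((Finset.sum_mul_sq_le_sq_mul_sq _ _ _).trans ?_)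
      simp only [mul_pow]
      exact mul_le_of_le_one_left (by positivity) a1
    · rw [proj_apply, if_neg fun e => hz ⟨z.1, Prod.ext rfl e⟩]
      simp
    · rw [← Finset.card_univ, Finset.card_eq_sum_ones, Nat.cast_sum]
      refine Finset.sum_le_sum fun i _ => ?_
      rw [← mul_pow, Nat.cast_one]
      exact pow_le_one₀ (by positivity) inv_mul_le_one
  · have e1 : op H g (∑ μ, tens (f μ) (r μ)) = ∑ μ, tens (f μ) (op ℂ g (r μ)) := by
      rw [map_sum]
      exact Finset.sum_congr rfl fun μ _ => (fib_op _ g _).symm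
    have b1 : ∀ i, ∑ j, ‖⟪f i, u (f j)⟫_ℂ‖ ^ 2 ≤ ‖u‖ ^ 2 := fun i => by
      have := hf.sum_inner_products_le (s := Finset.univ) (star u (f i))
      simp only [inner_star', norm_inner_symm (u _)] at this
      refine this.trans (pow_le_pow_left₀ (norm_nonneg _) ?_ 2)
      simpa [hf.1 i] using (star u).le_opNorm (f i)
    have b2 : ∀ j, ∑ i, ‖⟪f i, u (f j)⟫_ℂ‖ ^ 2 ≤ ‖u‖ ^ 2 := fun j =>
      (hf.sum_inner_products_le (s := Finset.univ) (u (f j))).trans
        (pow_le_pow_left₀ (norm_nonneg _) (by simpa [hf.1 j] using u.le_opNorm (f j)) 2)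
    have c1 : ∑ i, ∑ j, ‖r i‖ ^ 2 * ‖⟪f i, u (f j)⟫_ℂ‖ ^ 2 / 2 ≤ ‖u‖ ^ 2 * (∑ i, ‖r i‖ ^ 2) / 2 := by
      rw [Finset.mul_sum, Finset.sum_div]
      refine Finset.sum_le_sum fun i _ => ?_
      rw [← Finset.sum_div, ← Finset.mul_sum, mul_comm]
      gcongr
      exact b1 i
    have c2 : ∑ i, ∑ j, ‖r j‖ ^ 2 * ‖⟪f i, u (f j)⟫_ℂ‖ ^ 2 / 2 ≤ ‖u‖ ^ 2 * (∑ i, ‖r i‖ ^ 2) / 2 := by
      rw [Finset.sum_comm, Finset.mul_sum, Finset.sum_div]
      refine Finset.sum_le_sum fun i _ => ?_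
      rw [← Finset.sum_div, ← Finset.mul_sum, mul_comm]
      gcongr
      exact b2 i
    have c3 : 2 * ∑ i, ∑ j, (⟪f i, u (f j)⟫_ℂ * ⟪r i, op ℂ g (r j)⟫_ℂ).re ≤
        ∑ i, ∑ j, ((‖r i‖ ^ 2 * ‖⟪f i, u (f j)⟫_ℂ‖ ^ 2 / 2 +
          ‖r j‖ ^ 2 * ‖⟪f i, u (f j)⟫_ℂ‖ ^ 2 / 2) +
          ‖r i‖⁻¹ * (‖r j‖⁻¹ * ‖⟪r i, op ℂ g (r j)⟫_ℂ‖ ^ 2)) := by
      simp only [Finset.mul_sum]
      refine Finset.sum_le_sum fun i _ => Finset.sum_le_sum fun j _ => le_trans ?_
        (amgm (norm_nonneg _) (norm_nonneg _) ?_ (norm_nonneg _))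
      · rw [← norm_mul]
        exact mul_le_mul_of_nonneg_left (Complex.re_le_norm _) zero_le_two
      · rw [← norm_op g (r j)]
        exact norm_inner_le_norm _ _
    rw [k, n, e1, ri, inner_tsum]
    simp only [Complex.re_sum, Finset.sum_add_distrib] at c3 ⊢
    linarith

/-- An almost invariant unit vector on a given level. -/
def Good (u : Fin 4 → H →L[ℂ] H) (η : ℝ) (k : ℕ) : Prop :=
  ∃ ξ : L2 Y H, ‖ξ‖ = 1 ∧ proj H (lev k) ξ = ξ ∧
    ∀ s, ‖amp Y H (u s) (op H (gen s) ξ) - ξ‖ ≤ η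

theorem compress {D : Type*} [Fintype D] {e : D → H} {V : D → H →L[ℂ] H} {c δ η : ℝ}
    (hc : 0 < c) (hδ : 0 < δ) (he : Orthonormal ℂ e) (hV : ∑ μ, V μ * star (V μ) = (c : ℂ) • 1)
    {u : Fin 4 → H →L[ℂ] H}
    (hu : ∀ s, ‖fac e V Finset.univ Finset.univ (u s) - (c : ℂ) • u s‖ ≤ c * δ) {k : ℕ}
    (h : Good u η k) : ∃ x : D → L2 Y ℂ, (∀ μ χ, ¬lev k χ → x μ χ = 0) ∧
      ‖∑ μ, tens (e μ) (x μ)‖ = 1 ∧ 4 * (1 - η - 2 * δ) ≤ ∑ s, ri (∑ μ, tens (e μ) (x μ))
        (amp Y H (u s) (op H (gen s) (∑ μ, tens (e μ) (x μ)))) := by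
  obtain ⟨ξ, h1, h2, h3⟩ := h
  obtain ⟨w, b, -⟩ := exists_hilbertBasis ℂ H
  have h2' := (proj_eq_iff _ _).1 h2
  let z : D → L2 Y H := fun μ => star (amp Y H (V μ)) ξ
  have hz : ∀ μ, ∀ χ ∉ (lev_finite k).toFinset, z μ χ = 0 := fun μ χ hχ => by
    simp only [z, ← map_star, amp_apply, h2' χ (by simpa using hχ), map_zero]
  let X : w → L2 Y H := fun j => ∑ μ, tens (e μ) (slice (b j) (z μ))
  have a1 : HasSum (fun j => ‖X j‖ ^ 2) c := by
    have := sum_star_sq (I := Finset.univ) (P := fun μ => amp Y H (V μ)) (c := c) (by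
      simpa only [map_sum, map_mul, map_star, map_smul, map_one] using congrArg (amp Y H) hV) ξ
    rw [h1, one_pow, mul_one] at this
    rw [← this]
    simp only [X, norm_tsum he, ← ri_self]
    exact hasSum_sum fun μ _ => Complex.hasSum_re (hasSum_slice b (hz μ) (z μ))
  have a2 : ∀ s, HasSum (fun j => ri (X j) (amp Y H (u s) (op H (gen s) (X j))))
      (ri ξ (amp Y H (fac e V Finset.univ Finset.univ (u s)) (op H (gen s) ξ))) := fun s => by
    refine Complex.hasSum_re ?_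
    have e1 : ∀ j, op H (gen s) (X j) =
        ∑ μ, tens (e μ) (slice (b j) (op H (gen s) (z μ))) := fun j => by
      simp only [X, map_sum]
      refine Finset.sum_congr rfl fun μ _ => ?_
      rw [slice, fib_op]
      exact (fib_op _ _ _).symm
    have e2 : ⟪ξ, amp Y H (fac e V Finset.univ Finset.univ (u s)) (op H (gen s) ξ)⟫_ℂ =
        ∑ μ, ∑ ν, ⟪e μ, u s (e ν)⟫_ℂ * ⟪z μ, op H (gen s) (z ν)⟫_ℂ := by
      have e0 : ∀ ν, star (amp Y H (V ν)) (op H (gen s) ξ) = op H (gen s) (z ν) := fun ν => by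
        simp only [z, ← map_star]
        exact fib_op _ _ _
      simp only [fac, map_sum, map_smul, map_mul, map_star, ContinuousLinearMap.sum_apply,
        inner_sum, ContinuousLinearMap.smul_apply, inner_smul_right,
        ContinuousLinearMap.mul_apply, e0]
      simp only [z, inner_star]
    simp only [e1, e2, X, inner_tsum]
    exact hasSum_sum fun μ _ => hasSum_sum fun ν _ => (hasSum_slice b (hz μ) _).mul_left _
  have a3 : ∀ s, c * (1 - η - δ) ≤
      ri ξ (amp Y H (fac e V Finset.univ Finset.univ (u s)) (op H (gen s) ξ)) := fun s => by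
    have b1 := ri_le ξ (ξ - amp Y H (u s) (op H (gen s) ξ))
    have b2 := ri_le ξ (amp Y H ((c : ℂ) • u s - fac e V Finset.univ Finset.univ (u s))
      (op H (gen s) ξ))
    have b3 := (amp Y H ((c : ℂ) • u s - fac e V Finset.univ Finset.univ (u s))).le_of_opNorm_le
      ((NonUnitalStarAlgHom.norm_apply_le _ _).trans ((norm_sub_rev _ _).trans_le (hu s)))
      (op H (gen s) ξ)
    rw [norm_op, h1, mul_one] at b3
    rw [h1, one_mul] at b1 b2
    rw [norm_sub_rev, ri_sub_right, ri_self, h1] at b1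
    replace b2 := b2.trans b3
    rw [map_sub, map_smul, ContinuousLinearMap.sub_apply, ContinuousLinearMap.smul_apply,
      ri_sub_right, ri_smul_right] at b2
    nlinarith [h3 s]
  obtain ⟨j, hj⟩ : ∃ j, 4 * (1 - η - 2 * δ) * ‖X j‖ ^ 2 <
      ∑ s, ri (X j) (amp Y H (u s) (op H (gen s) (X j))) := by
    by_contra hn
    push Not at hn
    have := hasSum_le hn (hasSum_sum fun s _ => a2 s) (a1.mul_left _)
    have b := Finset.sum_le_sum fun s (_ : s ∈ Finset.univ) => a3 s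
    simp only [Finset.sum_const, Finset.card_univ, Fintype.card_fin, nsmul_eq_mul] at b
    push_cast at b
    nlinarith [mul_pos hc hδ]
  have p : 0 < ‖X j‖ := norm_pos_iff.2 fun h0 => by simp [h0, ri] at hj
  have e3 : ∑ μ, tens (e μ) (((‖X j‖⁻¹ : ℝ) : ℂ) • slice (b j) (z μ)) =
      ((‖X j‖⁻¹ : ℝ) : ℂ) • X j := by simp only [map_smul, X, Finset.smul_sum]
  refine ⟨fun μ => ((‖X j‖⁻¹ : ℝ) : ℂ) • slice (b j) (z μ), fun μ χ hχ => ?_, ?_, ?_⟩
  · simp [slice, fib_apply, hz μ χ (by simpa using hχ)]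
  · rw [e3, norm_smul, Complex.norm_real, norm_inv, norm_norm, inv_mul_cancel₀ p.ne']
  · rw [e3]
    simp only [map_smul, ri_smul_left, ri_smul_right, ← Finset.mul_sum]
    rw [le_inv_mul_iff₀ p, le_inv_mul_iff₀ p]
    nlinarith

theorem ri_levels {L : ℕ} {X : Fin L → L2 Y H} (hX : ∀ k : Fin L, proj H (lev k) (X k) = X k)
    {T : L2 Y H →L[ℂ] L2 Y H} (hT : ∀ k, Commute (proj H (lev k)) T) :
    ri (∑ k, X k) (T (∑ k, X k)) = ∑ k, ri (X k) (T (X k)) := by
  rw [ri_sum_left]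
  refine Finset.sum_congr rfl fun k _ => ?_
  rw [map_sum, ri_sum_right, Finset.sum_eq_single k (fun l _ hl => ?_) (by simp)]
  have : proj H (lev k) (X l) = 0 := by
    ext χ
    rw [proj_apply]
    split_ifs with h
    · exact (proj_eq_iff _ _).1 (hX l) χ fun h' => hl (Fin.ext (lev_unique h' h))
    · rfl
  rw [← hX k, ri_sa (star_proj _), app2 (hT k).eq, this, map_zero, ri_zero]

theorem no_good {S : Bool → H →L[ℂ] H} (hS : Cuntz S) {u : Fin 4 → H →L[ℂ] H}
    (hu : ∀ s, u s ∈ (StarAlgebra.adjoin ℂ (Set.range S)).topologicalClosure)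
    (hn : ∀ s, ‖u s‖ ≤ 1 + 1e-8) (h : ∀ k, Good u 1e-8 k) : False := by
  have : Nontrivial H := by
    by_contra hH
    obtain ⟨ξ, h1, -⟩ := h 0
    rw [not_nontrivial_iff_subsingleton] at hH
    rw [show ξ = 0 from lp.ext (funext fun _ => Subsingleton.elim _ _), norm_zero] at h1
    exact zero_ne_one h1
  obtain ⟨v, hv⟩ := exists_ne (0 : H)
  obtain ⟨D, _, e, V, c, hc, he, hV, hf⟩ := hS.cpap (norm_smul_inv_norm (𝕜 := ℂ) hv) hu
    (show (0 : ℝ) < 1e-8 by norm_num)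
  obtain ⟨L, hL⟩ : ∃ L, L = 2 * Fintype.card D + 1 := ⟨_, rfl⟩
  choose x x1 x2 x3 using fun k : Fin L =>
    compress hc (show (0 : ℝ) < 1e-8 by norm_num) he hV hf (h k)
  obtain ⟨X, hXd⟩ : ∃ X : Fin L → L2 Y H, ∀ k, ∑ μ, tens (e μ) (x k μ) = X k :=
    ⟨_, fun _ => rfl⟩
  simp only [hXd] at x2 x3
  have hX : ∀ k : Fin L, proj H (lev k) (X k) = X k :=
    fun k => (proj_eq_iff _ _).2 fun χ hχ => by
      simp only [← hXd, lp.coeFn_sum, Finset.sum_apply, tens_apply, x1 k _ χ hχ, zero_smul,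
        Finset.sum_const_zero]
  have e1 : ∑ μ, tens (e μ) (∑ k, x k μ) = ∑ k, X k := by
    simp only [map_sum, ← hXd]
    exact Finset.sum_comm
  obtain ⟨R, r1, r2, r3⟩ := kernel he (fun μ => ∑ k, x k μ) fun χ => by
    rw [e1, lp.coeFn_sum, Finset.sum_apply]
    by_cases hχ : ∃ k : Fin L, lev k χ
    · obtain ⟨k, hk⟩ := hχ
      rw [Finset.sum_eq_single k (fun l _ hl => (proj_eq_iff _ _).1 (hX l) χ
        fun h' => hl (Fin.ext (lev_unique h' hk))) (by simp), ← x2 k]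
      exact lp.norm_apply_le_norm two_ne_zero _ _
    · rw [Finset.sum_eq_zero fun l _ => (proj_eq_iff _ _).1 (hX l) χ fun h' => hχ ⟨l, h'⟩]
      simp
  rw [e1] at r1 r3
  have n1 : ‖R‖ ^ 2 = L := by
    have := ri_levels hX fun k => Commute.one_right _
    simp only [ContinuousLinearMap.one_apply, ri_self, x2] at this
    simp [r1, this]
  have n2 : ∀ s, ‖op ℂ (ad (gen s)) R - R‖ ≤ 1e-3 * ‖R‖ := fun s => by
    have b1 : ∀ k t, ri (X k) (amp Y H (u t) (op H (gen t) (X k))) ≤ 1 + 1e-8 := fun k t => by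
      refine (ri_le _ _).trans ?_
      have := (amp Y H (u t)).le_of_opNorm_le
        ((NonUnitalStarAlgHom.norm_apply_le _ _).trans (hn t)) (op H (gen t) (X k))
      rw [norm_op, x2, mul_one] at this
      rwa [x2, one_mul]
    have b2 : ∀ k, 1 - 15e-8 ≤ ri (X k) (amp Y H (u s) (op H (gen s) (X k))) := fun k => by
      have c1 := x3 k
      rw [← Finset.add_sum_erase _ _ (Finset.mem_univ s)] at c1
      have c2 := Finset.sum_le_sum fun t (_ : t ∈ Finset.univ.erase s) => b1 k t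
      simp only [Finset.sum_const, Finset.card_erase_of_mem (Finset.mem_univ s), Finset.card_univ,
        Fintype.card_fin, nsmul_eq_mul] at c2
      norm_num at c1 c2 ⊢
      linarith
    have b3 := ri_levels hX (T := amp Y H (u s) * op H (gen s)) fun k =>
      (amp_proj _ _).symm.mul_right (proj_op (lev_gen k s))
    have b4 := Finset.sum_le_sum fun k (_ : k ∈ Finset.univ) => b2 k
    simp only [ContinuousLinearMap.mul_apply] at b3
    rw [← b3, Finset.sum_const, Finset.card_univ, Fintype.card_fin, nsmul_eq_mul, ← n1] at b4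
    have b5 := r3 (u s) (gen s)
    have b6 : ‖u s‖ ^ 2 * ‖R‖ ^ 2 ≤ (1 + 1e-8) ^ 2 * ‖R‖ ^ 2 := by gcongr; exact hn s
    refine (sq_le_sq₀ (norm_nonneg _) (by positivity)).1 ?_
    rw [← ri_self, ri_sub_left, ri_sub_right, ri_sub_right, ri_self, ri_self, norm_op,
      ri_comm _ R, mul_pow]
    nlinarith [sq_nonneg ‖R‖]
  obtain ⟨R₀, q1, q2⟩ := propT (sys_gen.map ((op ℂ).comp ad) fun g => by
    rw [MonoidHom.comp_apply, MonoidHom.comp_apply, ← op_star]
    exact congrArg (op ℂ) (map_inv ad g)) R n2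
  have q3 : proj ℂ (fun z : Y × Y => z.1 = z.2) R₀ = R₀ := (proj_eq_iff _ _).2 fun z hz => by
    obtain ⟨i, hi⟩ := Function.ne_iff.1 hz
    have := congrArg (fun f : L2 (Y × Y) ℂ => f z) (fix_gD ((op ℂ).comp ad) q1 i)
    change ch (z.1 i - z.2 i) * R₀ z = R₀ z at this
    by_contra h0
    exact hi (sub_eq_zero.1 (ch_inj (((mul_eq_right₀ h0).1 this).trans ch_zero.symm)))
  have q4 : ‖R - proj ℂ (fun z : Y × Y => z.1 = z.2) R‖ ≤ ‖R - R₀‖ :=
    lp.norm_mono two_ne_zero fun z => by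
      simp only [lp.coeFn_sub, Pi.sub_apply, proj_apply]
      split_ifs with hz
      · simp
      · rw [(proj_eq_iff _ _).1 q3 z hz]
  have q5 := norm_sub_norm_le R (proj ℂ (fun z : Y × Y => z.1 = z.2) R)
  have q6 : (0.9 * ‖R‖) ^ 2 ≤ ‖proj ℂ (fun z : Y × Y => z.1 = z.2) R‖ ^ 2 :=
    pow_le_pow_left₀ (by positivity) (by norm_num at q2 ⊢; linarith) 2
  rw [mul_pow, n1, hL] at q6
  push_cast at q6
  have : (0 : ℝ) ≤ Fintype.card D := by positivity
  norm_num at q6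
  linarith

end Vale.Agent.P083
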