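import Vale.Agent.P083.Lp

/-! The concrete generators and the shift. -/

namespace Vale.Agent.P083

open scoped InnerProductSpace ComplexConjugate

abbrev Y := ℕ → F

def sh (j : ℕ) (c : F) (χ : Y) : Y := fun i => χ i + if i % 3 = j then c * χ (i + 1) else 0

theorem sh_sh (j : ℕ) (c d : F) (χ : Y) : sh j c (sh j d χ) = sh j (c + d) χ := by
  funext i
  by_cases h : i % 3 = j
  · have : ¬(i + 1) % 3 = j := by omega
    simp only [sh, h, this, if_true, if_false]
    ring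
  · simp [sh, h]

theorem sh_zero (j : ℕ) (χ : Y) : sh j 0 χ = χ := by
  funext i
  simp [sh]

def gE (j : ℕ) : Mon Y :=
  ⟨⟨sh j 1, sh j (-1), fun χ => by rw [sh_sh, neg_add_cancel, sh_zero],
    fun χ => by rw [sh_sh, add_neg_cancel, sh_zero]⟩, 0⟩

def gD (i : ℕ) : Mon Y := ⟨1, fun χ => χ i⟩

@[simp] theorem gE_s (j : ℕ) (χ : Y) : (gE j).s χ = sh j 1 χ := rfl
@[simp] theorem gE_symm (j : ℕ) (χ : Y) : (gE j).s.symm χ = sh j (-1) χ := rfl
@[simp] theorem gE_a (j : ℕ) (χ : Y) : (gE j).a χ = 0 := rfl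
@[simp] theorem gD_s (j : ℕ) (χ : Y) : (gD j).s χ = χ := rfl
@[simp] theorem gD_symm (j : ℕ) (χ : Y) : (gD j).s.symm χ = χ := rfl
@[simp] theorem gD_a (j : ℕ) (χ : Y) : (gD j).a χ = χ j := rfl

def gen : Fin 4 → Mon Y := ![gE 0, gE 1, gE 2, gD 0]

theorem gE_pow (j m : ℕ) (χ : Y) : (gE j ^ m).s χ = sh j m χ ∧ (gE j ^ m).a χ = 0 := by
  induction m with
  | zero => simp [sh_zero]
  | succ m ih => simp [pow_succ, ih, sh_sh, add_comm]

theorem gD_pow (j m : ℕ) (χ : Y) : (gD j ^ m).s χ = χ ∧ (gD j ^ m).a χ = χ j * m := by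
  induction m with
  | zero => simp
  | succ m ih => simp [pow_succ, ih, mul_add]

theorem un_gE (j : ℕ) : Un (gE j) :=
  ⟨inv_mul_cancel _, mon_ext (fun χ => by
    rw [(gE_pow j 11 χ).1, show ((11 : ℕ) : F) = 0 from rfl, sh_zero, one_s])
      fun χ => (gE_pow j 11 χ).2⟩

theorem un_gD (j : ℕ) : Un (gD j) :=
  ⟨inv_mul_cancel _, mon_ext (fun χ => (gD_pow j 11 χ).1) fun χ => by
    rw [(gD_pow j 11 χ).2, show ((11 : ℕ) : F) = 0 from rfl, mul_zero, one_a]⟩

theorem cm_ED {j i : ℕ} (h : i % 3 = j) : cm (gE j) (gD i) = gD (i + 1) :=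
  mon_ext (fun χ => by simp [cm, sh_sh, sh_zero]) fun χ => by simp [cm, sh_sh, sh_zero, sh, h]

theorem comm_ED {j i : ℕ} (h : i % 3 ≠ j) : Commute (gE j) (gD i) :=
  mon_ext (fun χ => by simp) fun χ => by simp [sh, h]

theorem comm_DD (i j : ℕ) : Commute (gD i) (gD j) :=
  mon_ext (fun χ => by simp) fun χ => by simp [add_comm]

theorem cm_swap {I : Type*} (a b : Mon I) : cm b a = (cm a b)⁻¹ := by
  change b * a * b⁻¹ * a⁻¹ = (a * b * a⁻¹ * b⁻¹)⁻¹
  group

theorem cm_of_comm {I : Type*} {a b : Mon I} (h : Commute a b) : cm a b = 1 := by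
  change a * b * a⁻¹ * b⁻¹ = 1
  rw [h.eq]
  group

theorem cm_EE (j k : ℕ) (h : (j + 1) % 3 = k) (hj : j < 3) :
    Commute (cm (gE j) (gE k)) (gE j) ∧ Commute (cm (gE j) (gE k)) (gE k) := by
  have key : ∀ i : ℕ, ∃ r : ℕ, r < 3 ∧ i % 3 = r ∧ (i + 1) % 3 = (r + 1) % 3 ∧
      (i + 1 + 1) % 3 = (r + 2) % 3 ∧ (i + 1 + 1 + 1) % 3 = r :=
    fun i => ⟨i % 3, by omega⟩
  subst h
  constructor <;> refine mon_ext (fun χ => funext fun i => ?_) fun χ => by simp [cm]
  all_goals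
    obtain ⟨r, h0, h1, h2, h3, h4⟩ := key i
    interval_cases j <;> interval_cases r <;> simp [cm, sh, h1, h2, h3, h4] <;> ring

theorem sys_gen : Sys gen := by
  have h01 := cm_EE 0 1 rfl (by norm_num)
  have h12 := cm_EE 1 2 rfl (by norm_num)
  have h20 := cm_EE 2 0 rfl (by norm_num)
  have e0 : cm (gE 0) (gD 0) = gD 1 := cm_ED rfl
  have e1 : cm (gE 1) (gD 0) = 1 := cm_of_comm (comm_ED (by norm_num))
  have e2 : cm (gE 2) (gD 0) = 1 := cm_of_comm (comm_ED (by norm_num))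
  have cl : ∀ i j, Commute (cm (gen i) (gen j)) (gen i) := fun i j => by
    fin_cases i <;> fin_cases j
    · exact (cm_of_comm (Commute.refl _)) ▸ Commute.one_left _
    · exact h01.1
    · exact cm_swap (gE 2) (gE 0) ▸ h20.2.inv_left
    · exact e0 ▸ (comm_ED (j := 0) (i := 1) (by norm_num)).symm
    · exact cm_swap (gE 0) (gE 1) ▸ h01.2.inv_left
    · exact (cm_of_comm (Commute.refl _)) ▸ Commute.one_left _
    · exact h12.1
    · exact e1 ▸ Commute.one_left _
    · exact h20.1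
    · exact cm_swap (gE 1) (gE 2) ▸ h12.2.inv_left
    · exact (cm_of_comm (Commute.refl _)) ▸ Commute.one_left _
    · exact e2 ▸ Commute.one_left _
    · exact cm_swap (gE 0) (gD 0) ▸ (e0 ▸ comm_DD 1 0 : Commute (cm (gE 0) (gD 0)) _).inv_left
    · exact cm_swap (gE 1) (gD 0) ▸ (e1 ▸ Commute.one_left _ :
        Commute (cm (gE 1) (gD 0)) _).inv_left
    · exact cm_swap (gE 2) (gD 0) ▸ (e2 ▸ Commute.one_left _ :
        Commute (cm (gE 2) (gD 0)) _).inv_left
    · exact (cm_of_comm (Commute.refl _)) ▸ Commute.one_left _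
  refine ⟨fun i => ?_, cl, fun i j => cm_swap (gen j) (gen i) ▸ (cl j i).inv_left⟩
  fin_cases i
  exacts [un_gE 0, un_gE 1, un_gE 2, un_gD 0]

theorem fix_gD {K : Type*} [NormedAddCommGroup K] [InnerProductSpace ℂ K]
    (ρ : Mon Y →* (K →L[ℂ] K)) {ξ : K} (h : ∀ i, ρ (gen i) ξ = ξ) (i : ℕ) : ρ (gD i) ξ = ξ := by
  have m : ∀ a b, ρ a ξ = ξ → ρ b ξ = ξ → ρ (a * b) ξ = ξ := fun a b ha hb => by
    rw [map_mul, ContinuousLinearMap.mul_apply, hb, ha]
  have n : ∀ a, ρ a ξ = ξ → ρ (star a) ξ = ξ := fun a ha => by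
    conv_lhs => rw [← ha, ← ContinuousLinearMap.mul_apply, ← map_mul]
    rw [show star a * a = 1 from inv_mul_cancel a, map_one, ContinuousLinearMap.one_apply]
  induction i with
  | zero => exact h 3
  | succ i ih =>
    have e : ρ (gE (i % 3)) ξ = ξ := by
      have : i % 3 = 0 ∨ i % 3 = 1 ∨ i % 3 = 2 := by omega
      rcases this with r | r | r <;> rw [r]
      exacts [h 0, h 1, h 2]
    rw [← cm_ED rfl]
    exact m _ _ (m _ _ (m _ _ e ih) (n _ e)) (n _ ih)

def tl (χ : Y) : Y := fun i => χ (i + 1)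

def cs (c : F) (χ : Y) : Y
  | 0 => c
  | i + 1 => χ i

theorem hasSum_tl {𝕜 E : Type*} [Semiring 𝕜] [AddCommMonoid E] [Module 𝕜 E] [TopologicalSpace E]
    [ContinuousAdd E] [ContinuousConstSMul 𝕜 E] (g : F → 𝕜) {f : Y → E} {a : E}
    (h : HasSum f a) : HasSum (fun χ : Y => g (χ 0) • f (tl χ)) ((∑ c, g c) • a) := by
  have k : ∀ c : F, HasSum (fun χ : Y => if χ 0 = c then g c • f (tl χ) else 0) (g c • a) :=
    fun c => by
    have hi : Function.Injective (cs c) := fun x y e => congrArg tl e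
    refine (hi.hasSum_iff fun χ hχ => if_neg fun e => hχ ⟨tl χ, ?_⟩).1 ?_
    · funext i
      cases i
      exacts [e.symm, rfl]
    · rw [show ((fun χ : Y => if χ 0 = c then g c • f (tl χ) else 0) ∘ cs c) =
        fun χ => g c • f χ from funext fun χ => if_pos rfl]
      exact h.const_smul (g c)
  rw [Finset.sum_smul]
  convert hasSum_sum fun c (_ : c ∈ Finset.univ) => k c using 2 with χ
  simp

variable {H : Type*} [NormedAddCommGroup H] [InnerProductSpace ℂ H]

/-- The shift. -/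
noncomputable def shift (H : Type*) [NormedAddCommGroup H] [InnerProductSpace ℂ H] :
    L2 Y H →L[ℂ] L2 Y H :=
  cmpOp H tl 11 (by norm_num) fun f a h => by simpa using hasSum_tl (fun _ => (1 : ℝ)) h

theorem shift_apply (ξ : L2 Y H) (χ : Y) : shift H ξ χ = ξ (tl χ) := rfl

theorem op_shift {g h : Mon Y} (h1 : ∀ χ, g.a χ = h.a (tl χ))
    (h2 : ∀ χ, tl (g.s χ) = h.s (tl χ)) : op H g * shift H = shift H * op H h := by
  ext ξ χ
  simp only [ContinuousLinearMap.mul_apply, op_apply, shift_apply, h1, h2]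

theorem gE_shift (j k : ℕ) (h : (j + 1) % 3 = k) (hj : j < 3) :
    op H (gE k) * shift H = shift H * op H (gE j) :=
  op_shift (fun _ => rfl) fun χ => funext fun i => by
    have : (i + 1) % 3 = k ↔ i % 3 = j := by omega
    simp [tl, sh, this]

theorem cm_shift : op H (cm (gen 0) (gen 3)) * shift H = shift H * op H (gen 3) := by
  rw [show cm (gen 0) (gen 3) = gD 1 from cm_ED rfl]
  exact op_shift (fun _ => rfl) fun _ => rfl

theorem inner_shift (m : ℕ) (x y : L2 Y H) :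
    ⟪shift H x, op H (gD 0 ^ m) (shift H y)⟫_ℂ = (∑ c : F, ch (c * m)) * ⟪x, y⟫_ℂ := by
  refine (lp.hasSum_inner _ _).unique ?_
  have := hasSum_tl (fun c => ch (c * m)) (lp.hasSum_inner (𝕜 := ℂ) x y)
  simpa only [op_apply, shift_apply, gD_pow, inner_smul_right, smul_eq_mul] using this

variable [CompleteSpace H]

theorem shift_orth (m : ℕ) (h0 : 0 < m) (hm : m < 11) :
    star (shift H) * op H (gen 3) ^ m * shift H = 0 := by
  ext1 y
  refine ext_inner_left ℂ fun x => ?_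
  have : (m : F) ≠ 0 := by interval_cases m <;> decide
  rw [← map_pow, ContinuousLinearMap.mul_apply, ContinuousLinearMap.mul_apply, inner_star']
  exact (inner_shift m x y).trans (by simp [sum_ch _ this])

theorem shift_iso : star (shift H) * shift H = (11 : ℂ) • 1 := by
  ext1 y
  refine ext_inner_left ℂ fun x => ?_
  have := inner_shift 0 x y
  rw [pow_zero, map_one, ContinuousLinearMap.one_apply] at this
  rw [ContinuousLinearMap.mul_apply, inner_star', this]
  simp [ch_zero, inner_smul_right]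

theorem amp_shift (T : H →L[ℂ] H) : Commute (amp Y H T) (shift H) :=
  ContinuousLinearMap.ext fun _ => rfl

/-- The levels. -/
def lev (k : ℕ) (χ : Y) : Prop := χ k = 1 ∧ ∀ i, k < i → χ i = 0

theorem lev_tl (k : ℕ) (χ : Y) : lev k (tl χ) ↔ lev (k + 1) χ :=
  and_congr Iff.rfl ⟨fun h i hi => by
    obtain ⟨i, rfl⟩ : ∃ j, i = j + 1 := ⟨i - 1, by omega⟩
    exact h i (by omega), fun h i hi => h (i + 1) (by omega)⟩

omit [CompleteSpace H] in
theorem proj_shift (k : ℕ) : proj H (lev (k + 1)) * shift H = shift H * proj H (lev k) := by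
  ext ξ χ
  simp only [ContinuousLinearMap.mul_apply]
  rw [proj_apply, shift_apply, shift_apply, proj_apply]
  by_cases h : lev (k + 1) χ
  · rw [if_pos h, if_pos ((lev_tl k χ).2 h)]
  · rw [if_neg h, if_neg (mt (lev_tl k χ).1 h)]

theorem lev_sh {k j : ℕ} {c : F} {χ : Y} (h : lev k χ) : lev k (sh j c χ) :=
  ⟨by simp [sh, h.1, h.2 (k + 1) (by omega)],
    fun i hi => by simp [sh, h.2 i hi, h.2 (i + 1) (by omega)]⟩

theorem lev_gen (k : ℕ) (s : Fin 4) (χ : Y) : lev k ((gen s).s χ) ↔ lev k χ := by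
  have e : ∀ j, lev k ((gE j).s χ) ↔ lev k χ := fun j =>
    ⟨fun h => (gE j).s.symm_apply_apply χ ▸ lev_sh h, lev_sh⟩
  fin_cases s
  exacts [e 0, e 1, e 2, Iff.rfl]

theorem lev_unique {k l : ℕ} {χ : Y} (h : lev k χ) (h' : lev l χ) : k = l := by
  rcases lt_trichotomy k l with r | r | r
  · exact absurd (h'.1.symm.trans (h.2 l r)) (by decide)
  · exact r
  · exact absurd (h.1.symm.trans (h'.2 k r)) (by decide)

theorem lev_finite (k : ℕ) : {χ | lev k χ}.Finite := by
  refine Set.Finite.of_finite_image (f := fun χ (i : Fin k) => χ i) (Set.toFinite _)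
    fun x hx y hy e => funext fun i => ?_
  rcases lt_trichotomy i k with r | r | r
  · exact congrFun e ⟨i, r⟩
  · rw [r, hx.1, hy.1]
  · rw [hx.2 i r, hy.2 i r]

/-- The base points. -/
def pt (c : F) : Y := cs c 0

theorem gen_pt (s : Fin 4) (c : F) : (gen s).s (pt c) = pt c := by
  have e : ∀ j, (gE j).s (pt c) = pt c := fun j => funext fun i => by simp [sh, pt, cs]
  fin_cases s
  exacts [e 0, e 1, e 2, rfl]

theorem gen_a_pt (s : Fin 4) : (gen s).a (pt 1) + (gen s).a (pt (-1)) = 0 := by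
  fin_cases s <;> rfl

theorem lev_pt : lev 0 (pt 1) := ⟨rfl, fun i hi => by
  obtain ⟨i, rfl⟩ : ∃ j, i = j + 1 := ⟨i - 1, by omega⟩
  rfl⟩

omit [CompleteSpace H] in
theorem gen_q (s : Fin 4) :
    ch ((gen s).a (pt 1)) • (op H (gen s) * proj H (· = pt (-1))) = proj H (· = pt (-1)) := by
  ext ξ χ
  change ch ((gen s).a (pt 1)) • op H (gen s) (proj H (· = pt (-1)) ξ) χ = _
  rw [op_apply, proj_apply, proj_apply]
  by_cases h : χ = pt (-1)
  · rw [if_pos h, h, gen_pt, if_pos rfl, smul_smul, ← ch_add, gen_a_pt, ch_zero, one_smul]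
  · rw [if_neg h, if_neg fun e => h ((gen s).s.injective (e.trans (gen_pt s _).symm)), smul_zero,
      smul_zero]

end Vale.Agent.P083
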