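import Vale.Agent.P083.T

/-! Monomial operators on square summable families. -/

namespace Vale.Agent.P083

open scoped InnerProductSpace ComplexConjugate

abbrev F := ZMod 11

abbrev L2 (I H : Type*) [NormedAddCommGroup H] := lp (fun _ : I => H) 2

noncomputable def ch (c : F) : ℂ := ZMod.stdAddChar c

theorem ch_add (c d : F) : ch (c + d) = ch c * ch d := AddChar.map_add_eq_mul _ _ _
theorem ch_zero : ch 0 = 1 := AddChar.map_zero_eq_one _
theorem norm_ch (c : F) : ‖ch c‖ = 1 := Circle.norm_coe _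
theorem ch_neg (c : F) : ch (-c) = conj (ch c) := AddChar.map_neg_eq_conj _ _
theorem ch_inj : Function.Injective ch := ZMod.injective_stdAddChar
theorem sum_ch (b : F) (hb : b ≠ 0) : ∑ c : F, ch (c * b) = 0 := by
  have := AddChar.sum_mulShift b (ZMod.isPrimitive_stdAddChar 11)
  rw [if_neg hb, Nat.cast_zero] at this
  exact this

variable {I I' H H' : Type*} [NormedAddCommGroup H] [InnerProductSpace ℂ H]
  [NormedAddCommGroup H'] [InnerProductSpace ℂ H']

omit [InnerProductSpace ℂ H] in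
theorem hasSum_sq (f : L2 I H) : HasSum (fun i => ‖f i‖ ^ 2) (‖f‖ ^ 2) := by
  simpa using lp.hasSum_norm (p := 2) (by norm_num) f

omit [InnerProductSpace ℂ H] in
theorem mem_sq {f : I → H} (h : Summable fun i => ‖f i‖ ^ 2) : Memℓp f 2 :=
  memℓp_gen (by simpa using h)

/-- Fibrewise application of one operator. -/
noncomputable def fib (I : Type*) (T : H →L[ℂ] H') : L2 I H →L[ℂ] L2 I H' :=
  lp.mapCLM 2 (fun _ => T) (norm_nonneg T) fun _ => le_rfl

theorem fib_apply (T : H →L[ℂ] H') (ξ : L2 I H) (i : I) : fib I T ξ i = T (ξ i) := rfl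

/-- Multiplication by a bounded function. -/
noncomputable def mulOp (H : Type*) [NormedAddCommGroup H] [InnerProductSpace ℂ H] (c : I → ℂ)
    (hc : ∀ i, ‖c i‖ ≤ 1) : L2 I H →L[ℂ] L2 I H :=
  lp.mapCLM 2 (fun i => c i • ContinuousLinearMap.id ℂ H) zero_le_one fun i => by
    rw [norm_smul]
    exact mul_le_one₀ (hc i) (norm_nonneg _) ContinuousLinearMap.norm_id_le

/-- Composition with a map of bounded multiplicity. -/
noncomputable def cmpOp (H : Type*) [NormedAddCommGroup H] [InnerProductSpace ℂ H] (τ : I → I')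
    (M : ℝ) (hM : 0 ≤ M) (h : ∀ (f : I' → ℝ) a, HasSum f a → HasSum (fun i => f (τ i)) (M * a)) :
    L2 I' H →L[ℂ] L2 I H :=
  LinearMap.mkContinuous
    { toFun := fun ξ => ⟨fun i => ξ (τ i),
        mem_sq (h (fun i => ‖ξ i‖ ^ 2) _ (hasSum_sq ξ)).summable⟩
      map_add' := fun _ _ => rfl
      map_smul' := fun _ _ => rfl } √M fun ξ => by
    refine (sq_le_sq₀ (norm_nonneg _) (by positivity)).1 ?_
    rw [mul_pow, Real.sq_sqrt hM]
    have k := h (fun i => ‖ξ i‖ ^ 2) _ (hasSum_sq ξ)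
    exact ((hasSum_sq ⟨fun i => ξ (τ i), mem_sq k.summable⟩).unique k).le

open Classical in
/-- The coordinate projection onto a set of indices. -/
noncomputable def proj (H : Type*) [NormedAddCommGroup H] [InnerProductSpace ℂ H]
    (P : I → Prop) : L2 I H →L[ℂ] L2 I H :=
  mulOp H (fun i => if P i then 1 else 0) fun i => by split_ifs <;> simp

open Classical in
theorem proj_apply (P : I → Prop) (ξ : L2 I H) (i : I) :
    proj H P ξ i = if P i then ξ i else 0 := by
  change (if P i then (1 : ℂ) else 0) • ξ i = _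
  split_ifs <;> simp

theorem proj_mul (P : I → Prop) : proj H P * proj H P = proj H P := by
  ext ξ i
  simp only [ContinuousLinearMap.mul_apply, proj_apply]
  split_ifs <;> rfl

theorem proj_eq_iff (P : I → Prop) (ξ : L2 I H) : proj H P ξ = ξ ↔ ∀ i, ¬P i → ξ i = 0 := by
  refine ⟨fun h i hi => by rw [← h, proj_apply, if_neg hi], fun h => ?_⟩
  ext i
  rw [proj_apply]
  split_ifs with hi
  · rfl
  · exact (h i hi).symm

/-- Monomial transformations. -/
@[ext] structure Mon (I : Type*) where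
  s : Equiv.Perm I
  a : I → F

instance : Group (Mon I) where
  mul g h := ⟨g.s.trans h.s, fun i => g.a i + h.a (g.s i)⟩
  one := ⟨1, 0⟩
  inv g := ⟨g.s.symm, fun i => -g.a (g.s.symm i)⟩
  mul_assoc g h k := Mon.ext rfl (funext fun _ => add_assoc _ _ _)
  one_mul g := Mon.ext rfl (funext fun _ => zero_add _)
  mul_one g := Mon.ext rfl (funext fun _ => add_zero _)
  inv_mul_cancel g := Mon.ext (Equiv.symm_trans_self _) (funext fun _ => neg_add_cancel _)

instance : Star (Mon I) := ⟨fun g => g⁻¹⟩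

@[simp] theorem mul_s (g h : Mon I) (i : I) : (g * h).s i = h.s (g.s i) := rfl
@[simp] theorem mul_a (g h : Mon I) (i : I) : (g * h).a i = g.a i + h.a (g.s i) := rfl
@[simp] theorem one_s (i : I) : (1 : Mon I).s i = i := rfl
@[simp] theorem one_a (i : I) : (1 : Mon I).a i = 0 := rfl
@[simp] theorem star_s (g : Mon I) (i : I) : (star g).s i = g.s.symm i := rfl
@[simp] theorem star_a (g : Mon I) (i : I) : (star g).a i = -g.a (g.s.symm i) := rfl

theorem mon_ext {g h : Mon I} (h1 : ∀ i, g.s i = h.s i) (h2 : ∀ i, g.a i = h.a i) : g = h :=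
  Mon.ext (Equiv.ext h1) (funext h2)

/-- The operator of a monomial transformation. -/
noncomputable def op (H : Type*) [NormedAddCommGroup H] [InnerProductSpace ℂ H] :
    Mon I →* (L2 I H →L[ℂ] L2 I H) where
  toFun g := mulOp H (fun i => ch (g.a i)) (fun _ => (norm_ch _).le) ∘L
    cmpOp H g.s 1 zero_le_one fun f a h => by rw [one_mul]; exact g.s.hasSum_iff.2 h
  map_one' := by
    ext ξ i
    change ch 0 • ξ i = ξ i
    rw [ch_zero, one_smul]
  map_mul' g h := by
    ext ξ i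
    change ch (g.a i + h.a (g.s i)) • ξ (h.s (g.s i)) =
      ch (g.a i) • ch (h.a (g.s i)) • ξ (h.s (g.s i))
    rw [ch_add, mul_smul]

theorem op_apply (g : Mon I) (ξ : L2 I H) (i : I) : op H g ξ i = ch (g.a i) • ξ (g.s i) := rfl

theorem fib_op (T : H →L[ℂ] H') (g : Mon I) (ξ : L2 I H) :
    fib I T (op H g ξ) = op H' g (fib I T ξ) := by
  ext i
  simp only [fib_apply, op_apply, map_smul]

theorem op_star [CompleteSpace H] (g : Mon I) : op H (star g) = star (op H g) := by
  refine (ContinuousLinearMap.eq_adjoint_iff _ _).2 fun x y => ?_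
  rw [lp.inner_eq_tsum, lp.inner_eq_tsum, ← g.s.tsum_eq]
  refine tsum_congr fun i => ?_
  simp [op_apply, ch_neg, inner_smul_left, inner_smul_right]

theorem norm_op [CompleteSpace H] (g : Mon I) (ξ : L2 I H) : ‖op H g ξ‖ = ‖ξ‖ := by
  have : ri (op H g ξ) (op H g ξ) = ri ξ ξ := by
    rw [ri, ← inner_star', ← op_star, ← ContinuousLinearMap.mul_apply, ← map_mul,
      show star g * g = 1 from inv_mul_cancel g, map_one]
    rfl
  rw [ri_self, ri_self] at this
  exact (pow_left_inj₀ (norm_nonneg _) (norm_nonneg _) two_ne_zero).1 this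

theorem star_proj [CompleteSpace H] (P : I → Prop) : star (proj H P) = proj H P := by
  refine ((ContinuousLinearMap.eq_adjoint_iff _ _).2 fun x y => ?_).symm
  rw [lp.inner_eq_tsum, lp.inner_eq_tsum]
  refine tsum_congr fun i => ?_
  rw [proj_apply, proj_apply]
  split_ifs <;> simp

theorem proj_op {P : I → Prop} {g : Mon I} (h : ∀ i, P (g.s i) ↔ P i) :
    Commute (proj H P) (op H g) := by
  refine ContinuousLinearMap.ext fun ξ => lp.ext (funext fun i => ?_)
  change proj H P (op H g ξ) i = op H g (proj H P ξ) i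
  rw [proj_apply, op_apply, op_apply, proj_apply]
  by_cases hi : P i
  · rw [if_pos hi, if_pos ((h i).2 hi)]
  · rw [if_neg hi, if_neg (mt (h i).1 hi), smul_zero]

/-- Amplification of operators. -/
noncomputable def amp (I H : Type*) [NormedAddCommGroup H] [InnerProductSpace ℂ H]
    [CompleteSpace H] : (H →L[ℂ] H) →⋆ₐ[ℂ] (L2 I H →L[ℂ] L2 I H) where
  toFun := fib I
  map_one' := by ext ζ i; rfl
  map_mul' a b := by ext ζ i; rfl
  map_zero' := by ext ζ i; rfl
  map_add' a b := by ext ζ i; rfl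
  commutes' z := by ext ζ i; rfl
  map_star' a := by
    refine (ContinuousLinearMap.eq_adjoint_iff _ _).2 fun x y => ?_
    rw [lp.inner_eq_tsum, lp.inner_eq_tsum]
    exact tsum_congr fun i => ContinuousLinearMap.adjoint_inner_left _ _ _

theorem amp_apply [CompleteSpace H] (T : H →L[ℂ] H) (ξ : L2 I H) (i : I) :
    amp I H T ξ i = T (ξ i) := rfl

theorem amp_op [CompleteSpace H] (T : H →L[ℂ] H) (g : Mon I) : Commute (amp I H T) (op H g) :=
  ContinuousLinearMap.ext fun ξ => fib_op T g ξ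

theorem amp_proj [CompleteSpace H] (T : H →L[ℂ] H) (P : I → Prop) :
    Commute (amp I H T) (proj H P) := by
  refine ContinuousLinearMap.ext fun ξ => lp.ext (funext fun i => ?_)
  change amp I H T (proj H P ξ) i = proj H P (amp I H T ξ) i
  simp only [proj_apply, amp_apply]
  split_ifs <;> simp

/-- Elementary tensors. -/
noncomputable def tens (v : H) : L2 I ℂ →L[ℂ] L2 I H :=
  fib I (ContinuousLinearMap.toSpanSingleton ℂ v)

theorem tens_apply (v : H) (x : L2 I ℂ) (i : I) : tens v x i = x i • v := rfl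

theorem inner_tens (v w : H) (x y : L2 I ℂ) :
    ⟪tens v x, tens w y⟫_ℂ = ⟪v, w⟫_ℂ * ⟪x, y⟫_ℂ := by
  rw [lp.inner_eq_tsum, lp.inner_eq_tsum, ← tsum_mul_left]
  refine tsum_congr fun i => ?_
  simp only [tens_apply, inner_smul_left, inner_smul_right, RCLike.inner_apply]
  ring

theorem amp_tens [CompleteSpace H] (T : H →L[ℂ] H) (v : H) (x : L2 I ℂ) :
    amp I H T (tens v x) = tens (T v) x := by
  ext i
  simp only [amp_apply, tens_apply, map_smul]

theorem inner_tsum [CompleteSpace H] {D D' : Type*} [Fintype D] [Fintype D'] (e : D → H)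
    (e' : D' → H) (x : D → L2 I ℂ) (y : D' → L2 I ℂ) (T : H →L[ℂ] H) :
    ⟪∑ μ, tens (e μ) (x μ), amp I H T (∑ μ, tens (e' μ) (y μ))⟫_ℂ =
      ∑ μ, ∑ ν, ⟪e μ, T (e' ν)⟫_ℂ * ⟪x μ, y ν⟫_ℂ := by
  simp only [map_sum, amp_tens, sum_inner]
  simp only [inner_sum, inner_tens]

theorem norm_tsum {D : Type*} [Fintype D] {e : D → H} (he : Orthonormal ℂ e) (x : D → L2 I ℂ) :
    ‖∑ μ, tens (e μ) (x μ)‖ ^ 2 = ∑ μ, ‖x μ‖ ^ 2 := by
  classical
  simp only [← ri_self, ri, sum_inner, inner_sum, inner_tens, orthonormal_iff_ite.1 he,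
    Complex.re_sum, ite_mul, one_mul, zero_mul, apply_ite Complex.re, Complex.zero_re,
    Finset.sum_ite_eq', Finset.mem_univ, if_true]

theorem inner_fin {ξ : L2 I H} {s : Finset I} (h : ∀ i ∉ s, ξ i = 0) (f : L2 I H) :
    ⟪ξ, f⟫_ℂ = ∑ i ∈ s, ⟪ξ i, f i⟫_ℂ :=
  (lp.hasSum_inner ξ f).unique (hasSum_sum_of_ne_finset_zero fun i hi => by simp [h i hi])

/-- Slices. -/
noncomputable def slice (v : H) : L2 I H →L[ℂ] L2 I ℂ := fib I (innerSL ℂ v)

theorem hasSum_slice {ι : Type*} (b : HilbertBasis ι ℂ H) {ξ : L2 I H} {s : Finset I}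
    (h : ∀ i ∉ s, ξ i = 0) (f : L2 I H) :
    HasSum (fun j => ⟪slice (b j) ξ, slice (b j) f⟫_ℂ) ⟪ξ, f⟫_ℂ := by
  rw [inner_fin h]
  have e : (fun j => ⟪slice (b j) ξ, slice (b j) f⟫_ℂ) =
      fun j => ∑ i ∈ s, ⟪ξ i, b j⟫_ℂ * ⟪b j, f i⟫_ℂ := funext fun j => by
    rw [inner_fin (s := s) fun i hi => by simp [slice, fib_apply, h i hi]]
    refine Finset.sum_congr rfl fun i _ => ?_
    simp [slice, fib_apply, mul_comm]
  rw [e]
  exact hasSum_sum fun i (_ : i ∈ s) => b.hasSum_inner_mul_inner (ξ i) (f i)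

/-- Rank one kernels. -/
noncomputable def tens2 (x y : L2 I ℂ) : L2 (I × I) ℂ :=
  ⟨fun z => x z.1 * conj (y z.2), mem_sq (by
    simpa [mul_pow] using (hasSum_sq x).summable.mul_of_nonneg (hasSum_sq y).summable
      (fun _ => sq_nonneg _) fun _ => sq_nonneg _)⟩

theorem tens2_apply (x y : L2 I ℂ) (z : I × I) : tens2 x y z = x z.1 * conj (y z.2) := rfl

theorem inner_tens2 (x y x' y' : L2 I ℂ) :
    ⟪tens2 x y, tens2 x' y'⟫_ℂ = ⟪x, x'⟫_ℂ * ⟪y', y⟫_ℂ := by
  have e : (fun z : I × I => ⟪tens2 x y z, tens2 x' y' z⟫_ℂ) =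
      fun z => ⟪x z.1, x' z.1⟫_ℂ * ⟪y' z.2, y z.2⟫_ℂ := by
    ext z
    simp only [tens2_apply, RCLike.inner_apply, map_mul, Complex.conj_conj]
    ring
  have k := lp.hasSum_inner (𝕜 := ℂ) (tens2 x y) (tens2 x' y')
  rw [e] at k
  exact k.unique (HasSum.mul (f := fun i => ⟪x i, x' i⟫_ℂ) (g := fun i => ⟪y' i, y i⟫_ℂ)
    (lp.hasSum_inner x x') (lp.hasSum_inner y' y) k.summable)

/-- The adjoint action. -/
def ad : Mon I →* Mon (I × I) where
  toFun g := ⟨g.s.prodCongr g.s, fun z => g.a z.1 - g.a z.2⟩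
  map_one' := mon_ext (fun _ => rfl) fun _ => sub_self _
  map_mul' g h := mon_ext (fun _ => rfl) fun z => by
    change g.a z.1 + h.a (g.s z.1) - (g.a z.2 + h.a (g.s z.2)) =
      g.a z.1 - g.a z.2 + (h.a (g.s z.1) - h.a (g.s z.2))
    ring

theorem op_tens2 (g : Mon I) (x y : L2 I ℂ) :
    op ℂ (ad g) (tens2 x y) = tens2 (op ℂ g x) (op ℂ g y) := by
  ext z
  change ch (g.a z.1 - g.a z.2) • (x (g.s z.1) * conj (y (g.s z.2))) =
    ch (g.a z.1) • x (g.s z.1) * conj (ch (g.a z.2) • y (g.s z.2))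
  rw [sub_eq_add_neg, ch_add, ch_neg]
  simp only [smul_eq_mul, map_mul]
  ring

section SysMap

variable {A R : Type*} [Monoid A] [Star A] [Monoid R]

theorem Sys.map [Star R] (f : A →* R) (hf : ∀ a, f (star a) = star (f a)) {u : Fin 4 → A}
    (h : Sys u) : Sys fun i => f (u i) := by
  have e : ∀ a b, cm (f a) (f b) = f (cm a b) := fun a b => by simp [cm, hf]
  refine ⟨fun i => ⟨?_, ?_⟩, fun i j => ?_, fun i j => ?_⟩
  · rw [← hf, ← map_mul, (h.un i).iso, map_one]
  · rw [← map_pow, (h.un i).ord, map_one]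
  · rw [e]; exact (h.cl i j).map f
  · rw [e]; exact (h.cr i j).map f

theorem Sys.of_map [Star R] (f : A →* R) (hf : ∀ a, f (star a) = star (f a))
    (hi : Function.Injective f) {u : Fin 4 → A} (h : Sys fun i => f (u i)) : Sys u := by
  have e : ∀ a b, cm (f a) (f b) = f (cm a b) := fun a b => by simp [cm, hf]
  refine ⟨fun i => ⟨hi ?_, hi ?_⟩, fun i j => ?_, fun i j => ?_⟩
  · rw [map_mul, hf, (h.un i).iso, map_one]
  · rw [map_pow, (h.un i).ord, map_one]
  · exact Commute.of_map hi (e _ _ ▸ h.cl i j)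
  · exact Commute.of_map hi (e _ _ ▸ h.cr i j)

theorem Sys.prod {G : Type*} [Monoid G] [Star G] {u : Fin 4 → A} {g : Fin 4 → G} (h : Sys u)
    (k : Sys g) : Sys fun i => (u i, g i) :=
  ⟨fun i => ⟨Prod.ext (h.un i).iso (k.un i).iso, Prod.ext (h.un i).ord (k.un i).ord⟩,
    fun i j => Prod.ext (h.cl i j) (k.cl i j), fun i j => Prod.ext (h.cr i j) (k.cr i j)⟩

end SysMap

end Vale.Agent.P083
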