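import Mathlib

/-! A spectral gap for four unitaries of order eleven generating Heisenberg groups in pairs. -/

namespace Vale.Agent.P083

open scoped InnerProductSpace

section Alg

variable {R : Type*} [Ring R] [StarRing R] [Algebra ℂ R] [StarModule ℂ R] {a b x y v : R}

/-- The average of the powers. -/
noncomputable def avg (x : R) : R := (11 : ℂ)⁻¹ • ∑ m ∈ Finset.range 11, x ^ m

/-- A unitary of order dividing eleven. -/
structure Un {R : Type*} [Monoid R] [Star R] (x : R) : Prop where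
  iso : star x * x = 1
  ord : x ^ 11 = 1

/-- The commutator of two unitaries. -/
def cm {R : Type*} [Monoid R] [Star R] (a b : R) : R := a * b * star a * star b

/-- Four unitaries with Heisenberg relations. -/
structure Sys {R : Type*} [Monoid R] [Star R] (u : Fin 4 → R) : Prop where
  un : ∀ i, Un (u i)
  cl : ∀ i j, Commute (cm (u i) (u j)) (u i)
  cr : ∀ i j, Commute (cm (u i) (u j)) (u j)

theorem Un.co {R : Type*} [Monoid R] [Star R] {x : R} (h : Un x) : x * star x = 1 := by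
  have : star x = x ^ 10 := by
    calc star x = star x * x ^ 11 := by rw [h.ord, mul_one]
      _ = (star x * x) * x ^ 10 := by rw [pow_succ', mul_assoc]
      _ = _ := by rw [h.iso, one_mul]
  rw [this, ← pow_succ', h.ord]

theorem pow_mul_of {R : Type*} [Monoid R] {x v : R} (h : x * v = v) (m : ℕ) : x ^ m * v = v := by
  induction m with
  | zero => simp
  | succ m ih => rw [pow_succ, mul_assoc, h, ih]

omit [StarRing R] [StarModule ℂ R] in
theorem avg_mul_of (h : x * v = v) : avg x * v = v := by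
  simp only [avg, smul_mul_assoc, Finset.sum_mul, pow_mul_of h, Finset.sum_const,
    Finset.card_range]
  rw [← Nat.cast_smul_eq_nsmul ℂ, smul_smul]
  norm_num

omit [StarRing R] [StarModule ℂ R] in
theorem commute_avg (h : Commute y x) : Commute y (avg x) :=
  (Commute.sum_right _ _ _ fun m _ => h.pow_right m).smul_right _

omit [StarRing R] [StarModule ℂ R] in
theorem mul_avg (h : x ^ 11 = 1) : x * avg x = avg x := by
  have e := Finset.sum_range_succ' (fun m => x ^ m) 11
  rw [Finset.sum_range_succ, h, pow_zero, add_left_inj] at e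
  rw [avg, mul_smul_comm, Finset.mul_sum]
  congr 1
  exact (Finset.sum_congr rfl fun m _ => (pow_succ' x m).symm).trans e.symm

omit [StarRing R] [StarModule ℂ R] in
theorem avg_mul (h : x ^ 11 = 1) : avg x * x = avg x := by
  rw [← (commute_avg (Commute.refl x)).eq, mul_avg h]

theorem Un.star_avg (h : Un x) : star (avg x) = avg x := by
  have e : star (avg x) = avg (star x) := by simp [avg]
  have e1 : star x * avg x = avg x := by
    conv_lhs => rw [← mul_avg h.ord, ← mul_assoc, h.iso, one_mul]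
  have e2 : star (avg x) * avg x = avg x := by rw [e, avg_mul_of e1]
  have e3 := congrArg star e2
  rw [star_mul, star_star, e2] at e3
  exact e3.symm

omit [StarModule ℂ R] in
theorem Un.avg_avg (h : Un x) : avg x * avg x = avg x := avg_mul_of (mul_avg h.ord)

omit [Algebra ℂ R] [StarModule ℂ R] in
theorem heis_pow (ha : Un a) (hb : Un b) (h2 : Commute (cm a b) b) (m : ℕ) :
    a * b ^ m = cm a b ^ m * b ^ m * a := by
  have k : a * b = cm a b * b * a := by
    rw [cm, mul_assoc _ (star b), hb.iso, mul_one, mul_assoc _ (star a), ha.iso, mul_one]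
  induction m with
  | zero => simp
  | succ m ih =>
    rw [pow_succ, ← mul_assoc, ih, mul_assoc, k, pow_succ, mul_assoc, mul_assoc, mul_assoc,
      mul_assoc, mul_assoc, ← mul_assoc (b ^ m) (cm a b), ← (h2.pow_right m).eq, mul_assoc]

omit [Algebra ℂ R] [StarModule ℂ R] in
theorem heis_un (ha : Un a) (hb : Un b) (h2 : Commute (cm a b) b) : Un (cm a b) := by
  refine ⟨?_, ?_⟩
  · simp only [cm, star_mul, star_star, mul_assoc]
    rw [← mul_assoc (star a) a, ha.iso, one_mul, ← mul_assoc (star b) b, hb.iso, one_mul,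
      ← mul_assoc a, ha.co, one_mul, hb.co]
  · have := heis_pow ha hb h2 11
    rw [hb.ord, mul_one, mul_one] at this
    rw [← mul_one (cm a b ^ 11), ← ha.co, ← mul_assoc, ← this]

omit [StarModule ℂ R] in
theorem heis_mid (ha : Un a) (hb : Un b) (h1 : Commute (cm a b) a) (h2 : Commute (cm a b) b)
    (m : ℕ) (h0 : 0 < m) (hm : m < 11) :
    avg (cm a b) * (avg a * b ^ m * avg a) = avg a * b ^ m * avg a := by
  have hz := heis_un ha hb h2
  have e : cm a b ^ m * (avg a * b ^ m * avg a) = avg a * b ^ m * avg a := by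
    conv_rhs => rw [← avg_mul ha.ord, mul_assoc _ a, heis_pow ha hb h2, mul_assoc, mul_assoc,
      avg_mul ha.ord, mul_avg ha.ord, ← mul_assoc, ← mul_assoc,
      ← (commute_avg (h1.pow_left m)).eq]
    simp only [mul_assoc]
  obtain ⟨k, -, hk⟩ := Nat.exists_mul_mod_eq_one_of_coprime (k := 11) (n := m)
    (by interval_cases m <;> decide) (by norm_num)
  have := pow_mul_of e k
  rw [← pow_mul, ← Nat.div_add_mod (m * k) 11, hk, pow_succ, pow_mul, hz.ord, one_pow,
    one_mul] at this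
  exact avg_mul_of this

omit [StarModule ℂ R] in
theorem heis_tri (ha : Un a) (hb : Un b) (h1 : Commute (cm a b) a) (h2 : Commute (cm a b) b) :
    ∃ w, avg a * avg b * avg a = (11 : ℂ)⁻¹ • avg a + w * avg (cm a b) := by
  have c1 : Commute (avg (cm a b)) (avg a) := commute_avg (commute_avg h1.symm).symm
  have c2 : Commute (avg (cm a b)) b := (commute_avg h2.symm).symm
  refine ⟨(11 : ℂ)⁻¹ • ∑ m ∈ Finset.range 10, avg a * b ^ (m + 1) * avg a, ?_⟩
  conv_lhs => rw [show avg b = (11 : ℂ)⁻¹ • ∑ m ∈ Finset.range 11, b ^ m from rfl,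
    Finset.sum_range_succ', mul_smul_comm, smul_mul_assoc, mul_add, add_mul, pow_zero, mul_one,
    ha.avg_avg, smul_add, Finset.mul_sum, Finset.sum_mul]
  rw [add_comm, smul_mul_assoc, Finset.sum_mul]
  congr 2
  refine Finset.sum_congr rfl fun m hm => ?_
  rw [← ((c1.mul_right (c2.pow_right _)).mul_right c1).eq,
    heis_mid ha hb h1 h2 _ (Nat.succ_pos m) (by simp at hm; omega)]

omit [StarModule ℂ R] in
theorem heis_comm (ha : Un a) (hb : Un b) (h1 : Commute (cm a b) a) (h2 : Commute (cm a b) b) :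
    avg a * avg b * avg (cm a b) = avg b * avg a * avg (cm a b) := by
  have hz := heis_un ha hb h2
  have c1 : Commute (avg (cm a b)) a := (commute_avg h1.symm).symm
  have c2 : Commute (avg (cm a b)) b := (commute_avg h2.symm).symm
  have e : ∀ m, Commute (b ^ m * avg (cm a b)) a := fun m => by
    rw [Commute, SemiconjBy, ← mul_assoc, heis_pow ha hb h2, mul_assoc, mul_assoc, mul_assoc,
      ← c1.eq, ← mul_assoc (b ^ m), ← (c2.pow_right m).eq, ← mul_assoc, ← mul_assoc,
      pow_mul_of (mul_avg hz.ord)]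
  have e2 : Commute (avg b * avg (cm a b)) a := by
    rw [avg, smul_mul_assoc, Finset.sum_mul]
    exact (Commute.sum_left _ _ _ fun m _ => e m).smul_left _
  rw [mul_assoc, ← (commute_avg e2).eq, mul_assoc, (commute_avg c1).eq, mul_assoc]

end Alg

section Hilb

variable {H : Type*} [NormedAddCommGroup H] [InnerProductSpace ℂ H] [CompleteSpace H]

/-- Real part of the inner product. -/
noncomputable def ri {H : Type*} [NormedAddCommGroup H] [InnerProductSpace ℂ H] (x y : H) : ℝ :=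
  (⟪x, y⟫_ℂ).re

section
omit [CompleteSpace H]
theorem ri_add_left (x y z : H) : ri (x + y) z = ri x z + ri y z := by simp [ri, inner_add_left]
theorem ri_add_right (x y z : H) : ri x (y + z) = ri x y + ri x z := by simp [ri, inner_add_right]
theorem ri_sub_left (x y z : H) : ri (x - y) z = ri x z - ri y z := by simp [ri, inner_sub_left]
theorem ri_sub_right (x y z : H) : ri x (y - z) = ri x y - ri x z := by simp [ri, inner_sub_right]
theorem ri_smul_left (r : ℝ) (x z : H) : ri ((r : ℂ) • x) z = r * ri x z := by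
  simp [ri, inner_smul_left]
theorem ri_smul_right (r : ℝ) (x z : H) : ri x ((r : ℂ) • z) = r * ri x z := by
  simp [ri, inner_smul_right]
theorem ri_comm (x y : H) : ri x y = ri y x := inner_re_symm (𝕜 := ℂ) x y
theorem ri_self (x : H) : ri x x = ‖x‖ ^ 2 := inner_self_eq_norm_sq (𝕜 := ℂ) x
theorem ri_nonneg (x : H) : 0 ≤ ri x x := by rw [ri_self]; positivity
theorem ri_zero (x : H) : ri x 0 = 0 := by simp [ri]
theorem ri_le (x y : H) : ri x y ≤ ‖x‖ * ‖y‖ := re_inner_le_norm (𝕜 := ℂ) x y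
theorem ri_sum_left {ι : Type*} (s : Finset ι) (x : ι → H) (y : H) :
    ri (∑ i ∈ s, x i) y = ∑ i ∈ s, ri (x i) y := by simp [ri, sum_inner]
theorem ri_sum_right {ι : Type*} (s : Finset ι) (x : ι → H) (y : H) :
    ri y (∑ i ∈ s, x i) = ∑ i ∈ s, ri y (x i) := by simp [ri, inner_sum]
end

theorem inner_star (T : H →L[ℂ] H) (x y : H) : ⟪star T x, y⟫_ℂ = ⟪x, T y⟫_ℂ :=
  ContinuousLinearMap.adjoint_inner_left _ _ _

theorem inner_star' (T : H →L[ℂ] H) (x y : H) : ⟪x, star T y⟫_ℂ = ⟪T x, y⟫_ℂ :=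
  ContinuousLinearMap.adjoint_inner_right _ _ _

theorem ri_sa {E : H →L[ℂ] H} (h : star E = E) (x y : H) : ri (E x) y = ri x (E y) := by
  rw [ri, ri, ← inner_star, h]

theorem app_of {X Y Z : H →L[ℂ] H} (h : X * Y = Z) (x : H) : X (Y x) = Z x :=
  DFunLike.congr_fun h x

theorem app2 {X Y Z W : H →L[ℂ] H} (h : X * Y = Z * W) (x : H) : X (Y x) = Z (W x) :=
  DFunLike.congr_fun h x

theorem ri_split {Z X Y : H →L[ℂ] H} (h : star Z = Z) (hh : Z * Z = Z) (hX : Commute Z X)
    (hY : Commute Z Y) (ξ : H) :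
    ri (X ξ) (Y ξ) = ri (X (Z ξ)) (Y (Z ξ)) + ri (X (ξ - Z ξ)) (Y (ξ - Z ξ)) := by
  have e1 : ri (X (Z ξ)) (Y (Z ξ)) = ri (X ξ) (Y (Z ξ)) := by
    rw [← app2 hX.eq, ri_sa h, app2 hY.eq, app_of hh]
  have e2 : ri (X (Z ξ)) (Y ξ) = ri (X ξ) (Y (Z ξ)) := by
    rw [← app2 hX.eq, ri_sa h, app2 hY.eq]
  simp only [map_sub, ri_sub_left, ri_sub_right]
  linarith

theorem heis_vec {a b : H →L[ℂ] H} (ha : Un a) (hb : Un b) (h1 : Commute (cm a b) a)
    (h2 : Commute (cm a b) b) (ξ : H) :
    0 ≤ 2 * ri ((1 - avg a) ξ) ((1 - avg b) ξ) + 0.31 * (ri ((1 - avg a) ξ) ((1 - avg a) ξ) +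
      ri ((1 - avg b) ξ) ((1 - avg b) ξ)) := by
  have hz := heis_un ha hb h2
  obtain ⟨w, hw⟩ := heis_tri ha hb h1 h2
  have hc := heis_comm ha hb h1 h2
  have c1 : Commute (avg (cm a b)) (1 - avg a) :=
    (Commute.one_right _).sub_right (commute_avg (commute_avg h1.symm).symm)
  have c2 : Commute (avg (cm a b)) (1 - avg b) :=
    (Commute.one_right _).sub_right (commute_avg (commute_avg h2.symm).symm)
  have sa := ha.star_avg
  have sb := hb.star_avg
  have pa := ha.avg_avg
  have pb := hb.avg_avg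
  have sz := hz.star_avg
  have pz := hz.avg_avg
  generalize avg a = P at *
  generalize avg b = Q at *
  generalize avg (cm a b) = Z at *
  rw [ri_split sz pz c1 c2, ri_split sz pz c1 c1, ri_split sz pz c2 c2]
  have k1 : 0 ≤ ri ((1 - P) (Z ξ)) ((1 - Q) (Z ξ)) := by
    have sP : star (1 - P) = 1 - P := by rw [star_sub, star_one, sa]
    have sQ : star (1 - Q) = 1 - Q := by rw [star_sub, star_one, sb]
    have e : (1 - P) * (1 - Q) * Z = (1 - Q) * (1 - P) * ((1 - P) * (1 - Q) * Z) := by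
      have e1 : (1 - P) * (1 - Q) * Z = (1 - Q) * (1 - P) * Z := by
        simp only [sub_mul, mul_sub, one_mul, mul_one, hc]; abel
      have e2 : (1 - P) * (1 - P) = 1 - P := by
        simp only [sub_mul, mul_sub, one_mul, mul_one, pa]; abel
      have e3 : (1 - Q) * (1 - Q) = 1 - Q := by
        simp only [sub_mul, mul_sub, one_mul, mul_one, pb]; abel
      rw [mul_assoc (1 - Q), ← mul_assoc (1 - P), ← mul_assoc (1 - P), e2, e1, ← mul_assoc,
        ← mul_assoc, e3]
    have e' := DFunLike.congr_fun e ξ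
    simp only [ContinuousLinearMap.mul_apply] at e'
    rw [ri_sa sP, e', ← ri_sa sQ, ← ri_sa sP]
    exact ri_nonneg _
  have z0 : Z (ξ - Z ξ) = 0 := by rw [map_sub, app_of pz, sub_self]
  generalize ξ - Z ξ = v at *
  have t1 : ri (Q (P v)) (Q (P v)) = 11⁻¹ * ri v (P v) := by
    have := DFunLike.congr_fun hw v
    simp only [ContinuousLinearMap.mul_apply, ContinuousLinearMap.add_apply, z0, map_zero,
      add_zero, ContinuousLinearMap.smul_apply] at this
    rw [ri_sa sb, app_of pb, ri_sa sa, this, ← ri_smul_right]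
    norm_num
  have t2 : ri (P v) (P v) = ri v (P v) := by rw [ri_sa sa, app_of pa]
  have t3 : ri (Q v) (Q v) = ri v (Q v) := by rw [ri_sa sb, app_of pb]
  have t4 : ri (Q v) (Q (P v)) = ri (P v) (Q v) := by
    rw [ri_sa sb, app_of pb, ← ri_sa sb, ri_comm]
  have t5 := ri_nonneg (((0.31 : ℝ) : ℂ) • Q v - Q (P v))
  have t6 := ri_nonneg (((1.31 : ℝ) : ℂ) • v - P v - Q v)
  have t7 := ri_nonneg (P v)
  have t8 := ri_nonneg ((1 - P) (Z ξ))
  have t9 := ri_nonneg ((1 - Q) (Z ξ))
  simp only [ri_sub_left, ri_sub_right, ri_smul_left, ri_smul_right, ri_comm (Q (P v)) (Q v),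
    ri_comm (P v) v, ri_comm (Q v) v, ri_comm (Q v) (P v), t1, t2, t3, t4] at t5 t6 t7
  generalize (1 - P) (Z ξ) = x at *
  generalize (1 - Q) (Z ξ) = y at *
  simp only [ContinuousLinearMap.sub_apply, ContinuousLinearMap.one_apply, ri_sub_left,
    ri_sub_right, ri_comm (P v) v, ri_comm (Q v) v, t2, t3]
  linarith

omit [CompleteSpace H] in
theorem norm_avg_sub {x : H →L[ℂ] H} (h : ∀ v, ‖x v‖ = ‖v‖) {ξ : H} {η : ℝ}
    (hξ : ‖x ξ - ξ‖ ≤ η) : ‖(1 - avg x) ξ‖ ≤ 10 * η := by
  have η0 : 0 ≤ η := (norm_nonneg _).trans hξ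
  have e : ∀ m : ℕ, ‖ξ - (x ^ m) ξ‖ ≤ m * η := fun m => by
    induction m with
    | zero => simp
    | succ m ih =>
      have : ξ - (x ^ (m + 1)) ξ = x (ξ - (x ^ m) ξ) - (x ξ - ξ) := by
        rw [pow_succ', map_sub, ContinuousLinearMap.mul_apply]; abel
      rw [this]
      refine (norm_sub_le _ _).trans ?_
      rw [h (ξ - (x ^ m) ξ), Nat.cast_succ, add_mul, one_mul]
      exact add_le_add ih hξ
  have e2 : (1 - avg x) ξ = (11 : ℂ)⁻¹ • ∑ m ∈ Finset.range 11, (ξ - (x ^ m) ξ) := by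
    simp only [avg, ContinuousLinearMap.sub_apply, ContinuousLinearMap.one_apply,
      ContinuousLinearMap.smul_apply, ContinuousLinearMap.sum_apply, Finset.sum_sub_distrib,
      Finset.sum_const, Finset.card_range, smul_sub]
    rw [← Nat.cast_smul_eq_nsmul ℂ, smul_smul]
    norm_num
  have e3 : ‖∑ m ∈ Finset.range 11, (ξ - (x ^ m) ξ)‖ ≤ ∑ m ∈ Finset.range 11, 10 * η :=
    norm_sum_le_of_le _ fun m hm => (e m).trans (by
      have : (m : ℝ) ≤ 10 := by simp at hm; exact_mod_cast (by omega : m ≤ 10)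
      gcongr)
  rw [e2, norm_smul]
  simp at e3 ⊢
  linarith

theorem Un.norm_app {x : H →L[ℂ] H} (h : Un x) (v : H) : ‖x v‖ = ‖v‖ := by
  have : ri (x v) (x v) = ri v v := by rw [ri, ← inner_star', app_of h.iso]; rfl
  rw [ri_self, ri_self] at this
  exact (pow_left_inj₀ (norm_nonneg _) (norm_nonneg _) two_ne_zero).1 this

/-- The spectral gap. -/
theorem propT {u : Fin 4 → H →L[ℂ] H} (hu : Sys u) (ξ : H) {η : ℝ}
    (hξ : ∀ i, ‖u i ξ - ξ‖ ≤ η) : ∃ ξ₀, (∀ i, u i ξ₀ = ξ₀) ∧ ‖ξ - ξ₀‖ ≤ 100 * η := by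
  have η0 : 0 ≤ η := (norm_nonneg _).trans (hξ 0)
  set Q : Fin 4 → H →L[ℂ] H := fun i => 1 - avg (u i) with hQ
  have sQ : ∀ i, star (Q i) = Q i := fun i => by rw [hQ, star_sub, star_one, (hu.un i).star_avg]
  have pQ : ∀ i, Q i * Q i = Q i := fun i => by
    simp only [hQ, sub_mul, mul_sub, one_mul, mul_one, (hu.un i).avg_avg]; abel
  set D : H →L[ℂ] H := ∑ i, Q i with hD
  have sD : star D = D := by simp [hD, star_sum, sQ]
  have d1 : ∀ v w, ri v (D w) = ∑ i, ri (Q i v) (Q i w) := fun v w => by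
    rw [hD, ContinuousLinearMap.sum_apply, ri_sum_right]
    exact Finset.sum_congr rfl fun i _ => by rw [ri_sa (sQ i), app_of (pQ i)]
  have d2 : ∀ v, 0.07 * ri v (D v) ≤ ri (D v) (D v) := fun v => by
    have h := fun i j => heis_vec (hu.un i) (hu.un j) (hu.cl i j) (hu.cr i j) v
    have h01 := h 0 1
    have h02 := h 0 2
    have h03 := h 0 3
    have h12 := h 1 2
    have h13 := h 1 3
    have h23 := h 2 3
    rw [d1, hD, ContinuousLinearMap.sum_apply]
    simp only [Fin.sum_univ_four, ri_add_left, ri_add_right, ri_comm (Q 1 v) (Q 0 v),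
      ri_comm (Q 2 v) (Q 0 v), ri_comm (Q 3 v) (Q 0 v), ri_comm (Q 2 v) (Q 1 v),
      ri_comm (Q 3 v) (Q 1 v), ri_comm (Q 3 v) (Q 2 v)]
    simp only [hQ]
    linarith
  have d3 : ∀ v, 0.07 * ri (D v) (D v) ≤ ri (D v) (D (D v)) := fun v => by
    have a1 := d2 v
    have a2 : 0 ≤ ri (D v - ((0.07 : ℝ) : ℂ) • v) (D (D v - ((0.07 : ℝ) : ℂ) • v)) := by
      rw [d1]; exact Finset.sum_nonneg fun i _ => ri_nonneg _
    simp only [map_sub, map_smul, ri_sub_left, ri_sub_right, ri_smul_left, ri_smul_right,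
      ← ri_sa sD v (D v)] at a2
    linarith
  let K := (LinearMap.range (D : H →ₗ[ℂ] H)).topologicalClosure
  have d4 : ∀ w ∈ K, 0.07 * ri w w ≤ ri w (D w) := fun w hw => by
    refine closure_minimal (s := (LinearMap.range (D : H →ₗ[ℂ] H) : Set H))
      (t := {w | 0.07 * ri w w ≤ ri w (D w)}) ?_ (isClosed_le ?_ ?_) hw
    · rintro _ ⟨v, rfl⟩
      exact d3 v
    · unfold ri; fun_prop
    · unfold ri; fun_prop
  have k0 : D (ξ - K.starProjection ξ) = 0 := by
    have := K.sub_starProjection_mem_orthogonal ξ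
      (D (D (ξ - K.starProjection ξ))) (subset_closure ⟨_, rfl⟩)
    rw [← inner_star', sD, inner_self_eq_zero] at this
    exact this
  refine ⟨ξ - K.starProjection ξ, fun i => ?_, ?_⟩
  · have a1 := d1 (ξ - K.starProjection ξ) (ξ - K.starProjection ξ)
    rw [k0, ri_zero, eq_comm, Finset.sum_eq_zero_iff_of_nonneg fun i _ => ri_nonneg _] at a1
    have a2 := a1 i (Finset.mem_univ i)
    rw [ri_self, sq_eq_zero_iff, norm_eq_zero, hQ, ContinuousLinearMap.sub_apply, sub_eq_zero,
      ContinuousLinearMap.one_apply] at a2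
    conv_lhs => rw [a2, app_of (mul_avg (hu.un i).ord), ← a2]
  · have a1 := d4 _ (K.starProjection_apply_mem ξ)
    have a2 : D (K.starProjection ξ) = D ξ := by rw [map_sub, sub_eq_zero] at k0; exact k0.symm
    rw [a2, ← ri_sa sD, a2, ri_comm (D ξ), d1, ri_self] at a1
    have a3 : ∑ i, ri (Q i ξ) (Q i ξ) ≤ ∑ i : Fin 4, (10 * η) ^ 2 :=
      Finset.sum_le_sum fun i _ => by
        rw [ri_self]
        exact pow_le_pow_left₀ (norm_nonneg _) (norm_avg_sub (hu.un i).norm_app (hξ i)) 2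
    simp only [Finset.sum_const, Finset.card_univ, Fintype.card_fin, nsmul_eq_mul] at a3
    rw [sub_sub_cancel]
    refine (sq_le_sq₀ (norm_nonneg _) (by positivity)).1 ?_
    push_cast at a3
    nlinarith [sq_nonneg η]

/-- Passing from one level to the next. -/
theorem step {u : Fin 4 → H →L[ℂ] H} (hu : Sys u) {V : H →L[ℂ] H} {c : ℝ}
    (h1 : u 1 * V = V * u 0) (h2 : u 2 * V = V * u 1) (h0 : u 0 * V = V * u 2)
    (h3 : cm (u 0) (u 3) * V = V * u 3) (c1 : Commute (u 1) (u 3)) (c2 : Commute (u 2) (u 3))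
    (o : ∀ m, 0 < m → m < 11 → star V * u 3 ^ m * V = 0) (n : star V * V = (c : ℂ) • 1)
    {ξ : H} (hξ : ∀ i, u i ξ = ξ) :
    (∀ i, u i (avg (u 3) (V ξ)) = avg (u 3) (V ξ)) ∧
      ‖avg (u 3) (V ξ)‖ ^ 2 = 11⁻¹ * c * ‖ξ‖ ^ 2 := by
  constructor
  · intro i
    fin_cases i
    · have e1 : u 0 (V ξ) = V ξ := by rw [app2 h0, hξ]
      have e2 : cm (u 0) (u 3) (V ξ) = V ξ := by rw [app2 h3, hξ]
      have e3 : ∀ m : ℕ, (cm (u 0) (u 3) ^ m) (V ξ) = V ξ := fun m => by
        induction m with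
        | zero => rfl
        | succ m ih => rw [pow_succ, ContinuousLinearMap.mul_apply, e2, ih]
      have e4 : ∀ m : ℕ, u 0 ((u 3 ^ m) (V ξ)) = (u 3 ^ m) (V ξ) := fun m => by
        rw [app2 (heis_pow (hu.un 0) (hu.un 3) (hu.cr 0 3) m), e1,
          ((hu.cr 0 3).pow_pow m m).eq, ContinuousLinearMap.mul_apply, e3]
      change u 0 _ = _
      simp only [avg, ContinuousLinearMap.smul_apply, ContinuousLinearMap.sum_apply, map_smul,
        map_sum, e4]
    · change u 1 _ = _
      rw [app2 (commute_avg c1).eq, app2 h1, hξ]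
    · change u 2 _ = _
      rw [app2 (commute_avg c2).eq, app2 h2, hξ]
    · exact app_of (mul_avg (hu.un 3).ord) _
  · have e : star V * avg (u 3) * V = ((11⁻¹ * c : ℝ) : ℂ) • 1 := by
      rw [avg, Finset.sum_range_succ', mul_smul_comm, smul_mul_assoc, mul_add, add_mul, pow_zero,
        mul_one, n, Finset.mul_sum, Finset.sum_mul, Finset.sum_eq_zero fun m hm =>
          o _ (Nat.succ_pos m) (by simp at hm; omega), zero_add, smul_smul]
      push_cast
      rfl
    rw [← ri_self, ri_sa (hu.un 3).star_avg, app_of (hu.un 3).avg_avg, ri, ← inner_star',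
      ← ri_self, ← ri_smul_right]
    exact congrArg (ri ξ) (DFunLike.congr_fun e ξ)

end Hilb

end Vale.Agent.P083
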