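import Vale.Agent.P083.Defs
import Vale.Agent.P083.T

/-! Faithful representations and ultraproduct representations. -/

namespace Vale.Agent.P083

open Filter
open scoped InnerProductSpace ComplexOrder ComplexStarModule ENNReal Topology

universe u

theorem exists_state {A : Type*} [CStarAlgebra A] [Nontrivial A] [PartialOrder A]
    [StarOrderedRing A] {h : A} (hh : 0 ≤ h) :
    ∃ φ : A →ₚ[ℂ] ℂ, (φ 1).re ≤ 1 ∧ ‖h‖ ≤ (φ h).re := by
  rcases eq_or_ne h 0 with rfl | h0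
  · exact ⟨0, by simp, by simp⟩
  obtain ⟨f, f1, f2⟩ := exists_dual_vector'' ℝ (algebraMap ℝ A ‖h‖ + h)
  have a1 := spectrum.norm_le_norm_of_mem ((spectrum.add_mem_add_iff (s := ‖h‖)).2
    (CStarAlgebra.norm_mem_spectrum_of_nonneg hh))
  have b : ∀ z, f z ≤ ‖z‖ := fun z =>
    (le_abs_self _).trans (by simpa using f.le_of_opNorm_le f1 z)
  have p : 0 < ‖h‖ := norm_pos_iff.2 h0
  have b1 := b 1
  have b2 := b h
  rw [norm_one] at b1
  rw [Real.norm_of_nonneg (by positivity), ← (show f _ = ‖algebraMap ℝ A ‖h‖ + h‖ from f2), map_add,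
    Algebra.algebraMap_eq_smul_one, map_smul, smul_eq_mul] at a1
  have c1 : 1 ≤ f 1 := by nlinarith
  have h5 : ∀ y : A, 0 ≤ y → 0 ≤ f y := fun y hy => by
    have p : 0 < ‖y‖ + 1 := by positivity
    have y0 : 0 ≤ (‖y‖ + 1)⁻¹ • y := smul_nonneg (by positivity) hy
    have b1 : (‖y‖ + 1)⁻¹ • y ≤ 1 := (CStarAlgebra.norm_le_one_iff_of_nonneg _ y0).1 (by
      rw [norm_smul, Real.norm_of_nonneg (by positivity), inv_mul_le_iff₀ p]; linarith)
    have := (b _).trans ((CStarAlgebra.norm_le_one_iff_of_nonneg _ (sub_nonneg.2 b1)).2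
      (sub_le_self _ y0))
    rw [map_sub, map_smul, smul_eq_mul] at this
    exact (mul_nonneg_iff_of_pos_left (inv_pos.2 p)).1 (by linarith)
  let ψ : A →ₗ[ℂ] ℂ :=
    { toFun := fun x => (f (ℜ x : A) : ℝ) + (f (ℑ x : A) : ℝ) * Complex.I
      map_add' := fun x y => by
        simp only [map_add, AddSubgroup.coe_add]
        push_cast
        ring
      map_smul' := fun z x => by
        simp only [realPart_smul, imaginaryPart_smul, AddSubgroup.coe_add, AddSubgroup.coe_sub,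
          selfAdjoint.val_smul, map_add, map_sub, map_smul, smul_eq_mul]
        apply Complex.ext <;> simp <;> ring }
  have hψ : ∀ y : A, 0 ≤ y → ψ y = (f y : ℝ) := fun y hy => by
    simp [ψ, hy.isSelfAdjoint.coe_realPart, hy.isSelfAdjoint.imaginaryPart]
  refine ⟨.mk₀ ψ fun y hy => ?_, ?_, ?_⟩
  · rw [hψ y hy]
    exact Complex.zero_le_real.2 (h5 y hy)
  · change (ψ 1).re ≤ 1
    rwa [hψ 1 zero_le_one, Complex.ofReal_re]
  · change _ ≤ (ψ _).re
    rw [hψ _ hh, Complex.ofReal_re]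
    nlinarith

theorem gns_vec {A : Type*} [CStarAlgebra A] [PartialOrder A] [StarOrderedRing A]
    (φ : A →ₚ[ℂ] ℂ) : ∃ Ω : φ.GNS, DenseRange (fun a => φ.gnsStarAlgHom a Ω) ∧
      ∀ a, ‖φ.gnsStarAlgHom a Ω‖ = √(φ (star a * a)).re := by
  have e : ∀ a, φ.gnsStarAlgHom a ((φ.toPreGNS 1 : φ.PreGNS) : φ.GNS) =
      (φ.toPreGNS a : φ.PreGNS) := fun a =>
    φ.gnsNonUnitalStarAlgHom_apply_coe.trans (congrArg _ (mul_one a))
  refine ⟨(φ.toPreGNS 1 : φ.PreGNS), ?_, fun a => ?_⟩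
  · simp only [e]
    exact UniformSpace.Completion.denseRange_coe (α := φ.PreGNS)
  · rw [e, UniformSpace.Completion.norm_coe]
    rfl

theorem gns_lin {A : Type u} [CStarAlgebra A] (ψ : A →ₗ[ℂ] ℂ) (h : ∀ x, 0 ≤ ψ (star x * x)) :
    ∃ (L : Type u) (_ : NormedAddCommGroup L) (_ : InnerProductSpace ℂ L) (_ : CompleteSpace L)
      (θ : A →⋆ₐ[ℂ] (L →L[ℂ] L)) (Ω : L), DenseRange (fun a => θ a Ω) ∧
        ∀ a, ‖θ a Ω‖ = √(ψ (star a * a)).re := by
  let _ := CStarAlgebra.spectralOrder A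
  have := CStarAlgebra.spectralOrderedRing A
  let φ : A →ₚ[ℂ] ℂ := .mk₀ ψ fun y hy => by
    obtain ⟨T, rfl⟩ := CStarAlgebra.nonneg_iff_eq_star_mul_self.1 hy
    exact h T
  obtain ⟨Ω, h1, h2⟩ := gns_vec φ
  exact ⟨φ.GNS, _, _, inferInstance, φ.gnsStarAlgHom, Ω, h1, h2⟩

theorem exists_faithful (A : Type u) [CStarAlgebra A] [Nontrivial A] :
    ∃ (K : Type u) (_ : NormedAddCommGroup K) (_ : InnerProductSpace ℂ K) (_ : CompleteSpace K)
      (ρ : A →⋆ₐ[ℂ] (K →L[ℂ] K)), ∀ x, ∃ v, ‖v‖ ≤ 1 ∧ ‖x‖ ≤ ‖ρ x v‖ := by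
  classical
  let _ := CStarAlgebra.spectralOrder A
  have := CStarAlgebra.spectralOrderedRing A
  choose φ h1 h2 using fun x : A => exists_state (star_mul_self_nonneg x)
  let r : A → lp (fun i => (φ i).GNS) 2 →L[ℂ] lp (fun i => (φ i).GNS) 2 := fun a =>
    lp.mapCLM 2 (fun i => (φ i).gnsStarAlgHom a) (norm_nonneg a)
      fun i => NonUnitalStarAlgHom.norm_apply_le _ a
  have hr : ∀ a ζ i, r a ζ i = (φ i).gnsStarAlgHom a (ζ i) := fun _ _ _ => rfl
  let ρ : A →⋆ₐ[ℂ] (lp (fun i => (φ i).GNS) 2 →L[ℂ] lp (fun i => (φ i).GNS) 2) :=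
    { toFun := r
      map_one' := by ext ζ i; rw [hr, map_one]; rfl
      map_mul' := fun a b => by ext ζ i; rw [hr, map_mul]; rfl
      map_zero' := by ext ζ i; rw [hr, map_zero]; rfl
      map_add' := fun a b => by ext ζ i; rw [hr, map_add]; rfl
      commutes' := fun z => by ext ζ i; rw [hr, AlgHomClass.commutes]; rfl
      map_star' := fun a => by
        refine (ContinuousLinearMap.eq_adjoint_iff _ _).2 fun x y => ?_
        rw [lp.inner_eq_tsum, lp.inner_eq_tsum]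
        refine tsum_congr fun i => ?_
        rw [hr, hr, map_star]
        exact ContinuousLinearMap.adjoint_inner_left _ _ _ }
  refine ⟨_, _, _, inferInstance, ρ, fun x => ?_⟩
  obtain ⟨Ω, -, hΩ⟩ := gns_vec (φ x)
  refine ⟨lp.single 2 x Ω, ?_, le_trans ?_ (lp.norm_apply_le_norm two_ne_zero _ x)⟩
  · have := hΩ 1
    rw [map_one, ContinuousLinearMap.one_apply, star_one, mul_one] at this
    rw [lp.norm_single (by norm_num), this]
    exact Real.sqrt_le_one.2 (h1 x)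
  · change _ ≤ ‖(φ x).gnsStarAlgHom x (lp.single (E := fun i => (φ i).GNS) 2 x Ω x)‖
    rw [lp.single_apply_self, hΩ]
    refine Real.le_sqrt_of_sq_le (le_of_eq_of_le ?_ (h2 x))
    rw [CStarRing.norm_star_mul_self, sq]

theorem exists_ultra {K : Type u} [NormedAddCommGroup K] [InnerProductSpace ℂ K]
    [CompleteSpace K] [Nontrivial K] (ω : Ultrafilter ℕ) (ξ : ℕ → K) (hξ : ∀ n, ‖ξ n‖ ≤ 1) :
    ∃ (L : Type u) (_ : NormedAddCommGroup L) (_ : InnerProductSpace ℂ L) (_ : CompleteSpace L)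
      (θ : lp (fun _ : ℕ => K →L[ℂ] K) ∞ →⋆ₐ[ℂ] (L →L[ℂ] L)) (Ω : L),
      DenseRange (fun T => θ T Ω) ∧
        (∀ T, Tendsto (fun n => ‖T n (ξ n)‖) ω (𝓝 ‖θ T Ω‖)) ∧
        ∀ T ∈ nullIdeal ω (K →L[ℂ] K), θ T = 0 := by
  let _ : CStarAlgebra (lp (fun _ : ℕ => K →L[ℂ] K) ∞) := { }
  have ex : ∀ T : lp (fun _ : ℕ => K →L[ℂ] K) ∞,
      ∃ z, Tendsto (fun n => ⟪ξ n, T n (ξ n)⟫_ℂ) ω (𝓝 z) := fun T => by
    obtain ⟨z, -, hz⟩ := (isCompact_closedBall (0 : ℂ) ‖T‖).ultrafilter_le_nhds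
      (ω.map fun n => ⟪ξ n, T n (ξ n)⟫_ℂ) (le_principal_iff.2 (mem_map.2 (univ_mem' fun n => by
        have a1 := (T n).le_of_opNorm_le (lp.norm_apply_le_norm ENNReal.top_ne_zero T n) (ξ n)
        have a2 := norm_inner_le_norm (𝕜 := ℂ) (ξ n) (T n (ξ n))
        have a3 := mul_le_of_le_one_left (norm_nonneg (T n (ξ n))) (hξ n)
        have a4 := mul_le_of_le_one_right (norm_nonneg T) (hξ n)
        simp only [Set.mem_preimage, mem_closedBall_zero_iff]
        linarith)))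
    exact ⟨z, hz⟩
  choose f hf using ex
  let ψ : lp (fun _ : ℕ => K →L[ℂ] K) ∞ →ₗ[ℂ] ℂ :=
    { toFun := f
      map_add' := fun S T => tendsto_nhds_unique (hf _) (((hf S).add (hf T)).congr fun n =>
        (inner_add_right _ _ _).symm)
      map_smul' := fun c T => tendsto_nhds_unique (hf _) (((hf T).const_mul c).congr fun n =>
        (inner_smul_right _ _ _).symm) }
  have k : ∀ T : lp (fun _ : ℕ => K →L[ℂ] K) ∞,
      Tendsto (fun n => ((‖T n (ξ n)‖ ^ 2 : ℝ) : ℂ)) ω (𝓝 (f (star T * T))) := fun T =>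
    (hf _).congr fun n => by
      change ⟪ξ n, star (T n) (T n (ξ n))⟫_ℂ = _
      rw [inner_star', inner_self_eq_norm_sq_to_K]
      simp
  obtain ⟨L, _, _, _, θ, Ω, h1, h2⟩ := gns_lin ψ fun T =>
    ge_of_tendsto' (k T) fun n => Complex.zero_le_real.2 (sq_nonneg _)
  have k2 : ∀ T, Tendsto (fun n => ‖T n (ξ n)‖) ω (𝓝 ‖θ T Ω‖) := fun T => by
    rw [h2]
    exact ((Complex.continuous_re.tendsto _).comp (k T)).sqrt.congr fun n => by
      rw [Function.comp_apply, Complex.ofReal_re, Real.sqrt_sq (norm_nonneg _)]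
  refine ⟨L, _, _, inferInstance, θ, Ω, h1, k2, fun T hT => ?_⟩
  ext1 w
  refine h1.induction_on w (isClosed_eq (by fun_prop) (by fun_prop)) fun S => ?_
  rw [← ContinuousLinearMap.mul_apply, ← map_mul, ContinuousLinearMap.zero_apply, ← norm_eq_zero]
  refine tendsto_nhds_unique (k2 _) (squeeze_zero (fun _ => norm_nonneg _) (fun n => ?_)
    (Ideal.mul_mem_right S _ hT))
  exact (((T * S) n).le_opNorm _).trans (mul_le_of_le_one_right (norm_nonneg _) (hξ n))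

section Seq

variable {A B : Type*} [CStarAlgebra A] [CStarAlgebra B] [Nontrivial B]

/-- Constant sequences. -/
noncomputable def lpConst (B : Type*) [CStarAlgebra B] [Nontrivial B] :
    B →⋆ₐ[ℂ] lp (fun _ : ℕ => B) ∞ where
  toFun b := ⟨fun _ => b, memℓp_infty ⟨‖b‖, by rintro _ ⟨n, rfl⟩; exact le_rfl⟩⟩
  map_one' := rfl
  map_mul' _ _ := rfl
  map_zero' := rfl
  map_add' _ _ := rfl
  commutes' _ := rfl
  map_star' _ := rfl

/-- Termwise application of a homomorphism. -/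
noncomputable def lpMap [Nontrivial A] (f : A →⋆ₐ[ℂ] B) :
    lp (fun _ : ℕ => A) ∞ →⋆ₐ[ℂ] lp (fun _ : ℕ => B) ∞ where
  toFun a := ⟨fun n => f (a n), memℓp_infty ⟨‖a‖, by
    rintro _ ⟨n, rfl⟩
    exact (NonUnitalStarAlgHom.norm_apply_le f _).trans
      (lp.norm_apply_le_norm ENNReal.top_ne_zero a n)⟩⟩
  map_one' := lp.ext (funext fun _ => map_one f)
  map_mul' _ _ := lp.ext (funext fun _ => map_mul f _ _)
  map_zero' := lp.ext (funext fun _ => map_zero f)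
  map_add' _ _ := lp.ext (funext fun _ => map_add f _ _)
  commutes' c := lp.ext (funext fun _ => AlgHomClass.commutes f c)
  map_star' _ := lp.ext (funext fun _ => map_star f _)

/-- The quotient map onto the ultrapower. -/
noncomputable def toUP (ω : Ultrafilter ℕ) (B : Type*) [CStarAlgebra B] [Nontrivial B] :
    lp (fun _ : ℕ => B) ∞ →⋆ₐ[ℂ] Ultrapower ω B :=
  { Ideal.Quotient.mkₐ ℂ (nullIdeal ω B) with map_star' := fun _ => rfl }

theorem toUP_surj (ω : Ultrafilter ℕ) : Function.Surjective (toUP ω B) :=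
  Ideal.Quotient.mk_surjective

theorem toUP_zero {ω : Ultrafilter ℕ} {b : lp (fun _ : ℕ => B) ∞} :
    toUP ω B b = 0 ↔ Tendsto (fun n => ‖b n‖) ω (𝓝 0) :=
  Ideal.Quotient.eq_zero_iff_mem

theorem exists_lift {ω : Ultrafilter ℕ} {R : Type*} [Ring R] [Algebra ℂ R] [Star R]
    (θ : lp (fun _ : ℕ => B) ∞ →⋆ₐ[ℂ] R) (h : ∀ b ∈ nullIdeal ω B, θ b = 0) :
    ∃ ρ : Ultrapower ω B →⋆ₐ[ℂ] R, ∀ b, ρ (toUP ω B b) = θ b :=
  ⟨{ Ideal.Quotient.liftₐ (nullIdeal ω B) θ.toAlgHom h with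
      map_star' := fun x => by
        obtain ⟨b, rfl⟩ := toUP_surj ω x
        exact map_star θ b }, fun _ => rfl⟩

end Seq

end Vale.Agent.P083
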