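import Vale.Agent.P083.Fin
import Vale.Agent.P083.Ultra

/-! The obstruction to embeddings into the ultrapower. -/

namespace Vale.Agent.P083

open Filter
open scoped InnerProductSpace ENNReal Topology

/-- The relations in the algebra that does not embed. -/
structure Rels {A : Type*} [Ring A] [StarRing A] [Algebra ℂ A] (a : Fin 4 → A) (t q : A) :
    Prop where
  sys : Sys a
  h1 : a 1 * t = t * a 0
  h2 : a 2 * t = t * a 1
  h0 : a 0 * t = t * a 2
  h3 : cm (a 0) (a 3) * t = t * a 3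
  c1 : Commute (a 1) (a 3)
  c2 : Commute (a 2) (a 3)
  iso : star t * t = (11 : ℂ) • 1
  eig : ∀ s, ch ((gen s).a (pt 1)) • (a s * q) = q

theorem norm_proj {I H : Type*} [NormedAddCommGroup H] [InnerProductSpace ℂ H] (P : I → Prop) :
    ‖proj H P‖ ≤ 1 :=
  ContinuousLinearMap.opNorm_le_bound _ zero_le_one fun ξ => by
    rw [one_mul]
    refine lp.norm_mono two_ne_zero fun i => ?_
    rw [proj_apply]
    split_ifs <;> simp

variable {A B H : Type*} [Ring A] [StarRing A] [Algebra ℂ A] [CStarAlgebra B] [Nontrivial B]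
  [NormedAddCommGroup H] [InnerProductSpace ℂ H] [CompleteSpace H]
  {ω : Ultrafilter ℕ} {a : Fin 4 → A} {t q : A}

theorem abs_step {L : Type*} [NormedAddCommGroup L] [InnerProductSpace ℂ L] [CompleteSpace L]
    (hA : Rels a t q) (ψ : A →⋆ₐ[ℂ] (L →L[ℂ] L))
    (κ : (L2 Y H →L[ℂ] L2 Y H) →⋆ₐ[ℂ] (L →L[ℂ] L)) (c1 : ∀ x g, Commute (ψ x) (κ (op H g)))
    (c2 : ∀ x, Commute (ψ x) (κ (shift H))) {P Q : L →L[ℂ] L}
    (p1 : ∀ s, Commute P (ψ (a s) * κ (op H (gen s))))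
    (p2 : Commute Q (ψ (a 3) * κ (op H (gen 3))))
    (p3 : Q * (ψ t * κ (shift H)) = ψ t * κ (shift H) * P) (p4 : P * P = P) (p5 : ‖P‖ ≤ 1)
    {Ω : L} (o1 : ‖Ω‖ = 1) (o2 : P Ω = Ω)
    (o3 : ∀ s, ‖(ψ (a s) * κ (op H (gen s))) Ω - Ω‖ ≤ 1e-8) :
    ∃ ζ, 1 < ‖ζ‖ ∧ Q ζ = ζ ∧ ∀ s, (ψ (a s) * κ (op H (gen s))) ζ = ζ := by
  obtain ⟨Φ, hΦ⟩ : ∃ Φ : A × Mon Y →* (L →L[ℂ] L), ∀ x g, Φ (x, g) = ψ x * κ (op H g) :=
    ⟨MonoidHom.noncommCoprod (ψ : A →* (L →L[ℂ] L))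
      ((κ : (L2 Y H →L[ℂ] L2 Y H) →* (L →L[ℂ] L)).comp (op H)) c1, fun _ _ => rfl⟩
  have sΦ : ∀ z, Φ (star z) = star (Φ z) := fun z => by
    change Φ (star z.1, star z.2) = star (Φ (z.1, z.2))
    rw [hΦ, hΦ, (c1 _ _).eq, star_mul, op_star, map_star, map_star]
  have hu := (hA.sys.prod sys_gen).map Φ sΦ
  have hV : ∀ {x y g h}, x * t = t * y → op H g * shift H = shift H * op H h →
      Φ (x, g) * (ψ t * κ (shift H)) = ψ t * κ (shift H) * Φ (y, h) := fun {x y g h} e1 e2 => by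
    rw [hΦ, hΦ, mul_assoc, ← mul_assoc (κ _), ← (c1 _ _).eq, mul_assoc, ← map_mul κ, e2,
      ← mul_assoc, ← map_mul ψ, e1, map_mul, map_mul, mul_assoc, mul_assoc, ← mul_assoc (ψ y),
      (c2 y).eq, mul_assoc]
  simp only [← hΦ] at p1 p2 o3 ⊢
  obtain ⟨Ω₀, q1, q2⟩ := propT hu Ω o3
  have q3 : ‖Ω - P Ω₀‖ ≤ ‖Ω - Ω₀‖ := by
    conv_lhs => rw [← o2, ← map_sub]
    simpa using P.le_of_opNorm_le p5 (Ω - Ω₀)
  obtain ⟨s1, s2⟩ := step hu (V := ψ t * κ (shift H)) (c := 121)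
    (hV hA.h1 (gE_shift 0 1 rfl (by norm_num))) (hV hA.h2 (gE_shift 1 2 rfl (by norm_num)))
    (hV hA.h0 (gE_shift 2 0 rfl (by norm_num)))
    (by
      rw [← hV hA.h3 cm_shift]
      simp only [cm, ← sΦ, ← map_mul]
      rfl)
    (Commute.map (hA.c1.prod (comm_ED (j := 1) (i := 0) (by norm_num))) Φ)
    (Commute.map (hA.c2.prod (comm_ED (j := 2) (i := 0) (by norm_num))) Φ)
    (fun m h0 hm => by
      have c3 : ∀ x, Commute (ψ x) (star (κ (shift H))) := fun x => by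
        simpa only [← map_star ψ, star_star] using (c2 (star x)).star_star
      have e := congrArg κ (shift_orth (H := H) m h0 hm)
      rw [map_mul, map_mul, map_star, map_zero, ← map_pow] at e
      calc _ = ψ (star t) * ψ (a 3 ^ m) * ψ t *
            (star (κ (shift H)) * κ (op H (gen 3 ^ m)) * κ (shift H)) := by
            rw [← map_pow, Prod.pow_mk, hΦ, star_mul, ← map_star ψ, ← (c3 _).eq]
            simp only [mul_assoc]
            rw [← mul_assoc (κ _) (ψ t), ← (c1 _ _).eq, ← mul_assoc (star _) (ψ _), ← (c3 _).eq,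
              ← mul_assoc (ψ t) (star _), (c3 t).eq]
            simp only [mul_assoc]
        _ = 0 := by rw [e, mul_zero])
    (by
      rw [star_mul, mul_assoc, ← mul_assoc (star (ψ t)), ← map_star, ← map_star, ← map_mul,
        hA.iso, map_smul, map_one, smul_mul_assoc, one_mul, mul_smul_comm, ← map_mul, shift_iso,
        map_smul, map_one, smul_smul]
      norm_num)
    (ξ := P Ω₀) fun s => by rw [← app2 (p1 s).eq, q1]
  refine ⟨_, ?_, ?_, s1⟩
  · have := norm_sub_norm_le Ω (P Ω₀)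
    have e : 1 / 2 ≤ ‖P Ω₀‖ := by norm_num at q2; linarith
    exact lt_of_pow_lt_pow_left₀ 2 (norm_nonneg _) (by nlinarith)
  · rw [app2 (commute_avg p2).eq, app2 p3, app_of p4]

theorem lp_commute {S T : lp (fun _ : ℕ => B) ∞} (h : ∀ n, Commute (S n) (T n)) : Commute S T :=
  lp.ext (funext h)

section Gen

variable {K L : Type*} [NormedAddCommGroup K] [InnerProductSpace ℂ K] [CompleteSpace K]
  [Nontrivial K] [NormedAddCommGroup L] [InnerProductSpace ℂ L] [CompleteSpace L]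
  {θ : lp (fun _ : ℕ => K →L[ℂ] K) ∞ →⋆ₐ[ℂ] (L →L[ℂ] L)} {Ω : L} {ξ : ℕ → K}

theorem ultra_le (hl : ∀ T, Tendsto (fun n => ‖T n (ξ n)‖) ω (𝓝 ‖θ T Ω‖))
    (T : lp (fun _ : ℕ => K →L[ℂ] K) ∞) {η : ℝ}
    (h : ∀ᶠ n in (ω : Filter ℕ), ‖T n (ξ n) - ξ n‖ ≤ η) : ‖θ T Ω - Ω‖ ≤ η := by
  have := hl (T - 1)
  rw [map_sub, map_one] at this
  exact le_of_tendsto this h

theorem ultra_one (hl : ∀ T, Tendsto (fun n => ‖T n (ξ n)‖) ω (𝓝 ‖θ T Ω‖))
    (h : ∀ᶠ n in (ω : Filter ℕ), ‖ξ n‖ = 1) : ‖Ω‖ = 1 := by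
  have := hl 1
  rw [map_one] at this
  exact tendsto_nhds_unique this (tendsto_const_nhds.congr' (h.mono fun n h => h.symm))

theorem descend (hd : DenseRange fun T => θ T Ω)
    (hl : ∀ T, Tendsto (fun n => ‖T n (ξ n)‖) ω (𝓝 ‖θ T Ω‖))
    {p : lp (fun _ : ℕ => K →L[ℂ] K) ∞} {U : Fin 4 → lp (fun _ : ℕ => K →L[ℂ] K) ∞} {ζ : L}
    (s1 : 1 < ‖ζ‖) (s2 : θ p ζ = ζ) (s3 : ∀ s, θ (U s) ζ = ζ) : ∀ᶠ n in (ω : Filter ℕ),
      ∃ w, 1 < ‖p n w‖ ∧ ∀ s, ‖U s n (p n w) - p n w‖ < 1e-8 := by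
  obtain ⟨T, t1, t2⟩ := hd.exists_mem_open (s := {w | 1 < ‖θ p w‖ ∧
      ∀ s, ‖θ (U s - 1) (θ p w)‖ < 1e-8})
    ((isOpen_lt (g := fun w => ‖θ p w‖) continuous_const (by fun_prop)).inter (by
      change IsOpen {w | ∀ s, ‖θ (U s - 1) (θ p w)‖ < 1e-8}
      rw [Set.setOf_forall]
      exact isOpen_iInter_of_finite fun s => isOpen_lt (by fun_prop) continuous_const))
    ⟨ζ, by rwa [s2], fun s => by
      rw [s2, map_sub, map_one, ContinuousLinearMap.sub_apply, s3, ContinuousLinearMap.one_apply,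
        sub_self, norm_zero]
      norm_num⟩
  simp only [← ContinuousLinearMap.mul_apply, ← map_mul] at t1 t2
  filter_upwards [(hl _).eventually (lt_mem_nhds t1),
    eventually_all.2 fun s => (hl _).eventually (gt_mem_nhds (t2 s))] with n n2 n3
  exact ⟨T n (ξ n), n2, n3⟩

end Gen

theorem good_succ [Nontrivial H] (hA : Rels a t q) (φ : A →⋆ₐ[ℂ] Ultrapower ω B)
    (π : B →⋆ₐ[ℂ] (H →L[ℂ] H)) (b : A → lp (fun _ : ℕ => B) ∞) (hb : ∀ x, toUP ω B (b x) = φ x) :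
    ∀ᶠ n in (ω : Filter ℕ), ∀ k, Good (fun s => π (b (a s) n)) 1e-8 k →
      Good (fun s => π (b (a s) n)) 1e-8 (k + 1) := by
  by_contra hn
  rw [← Ultrafilter.eventually_not] at hn
  have ex : ∀ n, ∃ (k : ℕ) (ξ : L2 Y H), ‖ξ‖ ≤ 1 ∧ ((¬∀ k, Good (fun s => π (b (a s) n)) 1e-8 k →
      Good (fun s => π (b (a s) n)) 1e-8 (k + 1)) → ‖ξ‖ = 1 ∧ proj H (lev k) ξ = ξ ∧
      (∀ s, ‖amp Y H (π (b (a s) n)) (op H (gen s) ξ) - ξ‖ ≤ 1e-8) ∧
      ¬Good (fun s => π (b (a s) n)) 1e-8 (k + 1)) := fun n => by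
    by_cases h : ∀ k, Good (fun s => π (b (a s) n)) 1e-8 k →
      Good (fun s => π (b (a s) n)) 1e-8 (k + 1)
    · exact ⟨0, 0, by simp, fun h' => absurd h h'⟩
    · push Not at h
      obtain ⟨k, ⟨ξ, h1, h2, h3⟩, h4⟩ := h
      exact ⟨k, ξ, h1.le, fun _ => ⟨h1, h2, h3, h4⟩⟩
  choose k ξ hξ hk using ex
  replace hk := hn.mono hk
  clear hn
  have : Nontrivial (L2 Y H) := by
    classical
    obtain ⟨v, hv⟩ := exists_ne (0 : H)
    exact ⟨lp.single 2 0 v, 0, fun e => hv (by simpa using congrArg (fun f : L2 Y H => f 0) e)⟩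
  obtain ⟨L, _, _, _, θ, Ω, hd, hl, hz⟩ := exists_ultra ω ξ hξ
  obtain ⟨ρ, hρ⟩ := exists_lift (θ.comp (lpMap ((amp Y H).comp π))) fun x hx => hz _
    (squeeze_zero (fun _ => norm_nonneg _)
      (fun n => NonUnitalStarAlgHom.norm_apply_le ((amp Y H).comp π) (x n)) hx)
  obtain ⟨ψ, hψ⟩ : ∃ ψ : A →⋆ₐ[ℂ] (L →L[ℂ] L), ∀ x, ψ x = θ (lpMap ((amp Y H).comp π) (b x)) :=
    ⟨ρ.comp φ, fun x => by rw [StarAlgHom.comp_apply, ← hb, hρ]; rfl⟩
  have hc : ∀ x (T : lp (fun _ : ℕ => L2 Y H →L[ℂ] L2 Y H) ∞),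
      (∀ n y, Commute (amp Y H y) (T n)) → Commute (ψ x) (θ T) := fun x T h => by
    rw [hψ]
    exact Commute.map (lp_commute fun n => h n _) θ
  obtain ⟨κ, hκ⟩ : ∃ κ : (L2 Y H →L[ℂ] L2 Y H) →⋆ₐ[ℂ] (L →L[ℂ] L), ∀ x, κ x = θ (lpConst _ x) :=
    ⟨θ.comp (lpConst _), fun _ => rfl⟩
  obtain ⟨p, hp⟩ : ∃ p : ℕ → lp (fun _ : ℕ => L2 Y H →L[ℂ] L2 Y H) ∞,
      ∀ j n, p j n = proj H (lev (k n + j)) :=
    ⟨fun j => ⟨fun n => proj H (lev (k n + j)),
      memℓp_infty ⟨1, by rintro _ ⟨n, rfl⟩; exact norm_proj _⟩⟩, fun _ _ => rfl⟩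
  have p0 : ∀ j x, Commute (ψ x) (θ (p j)) := fun j x => hc _ _ fun _ y => hp _ _ ▸ amp_proj y _
  have p1 : ∀ j s, Commute (θ (p j)) (ψ (a s) * κ (op H (gen s))) := fun j s =>
    (p0 j _).symm.mul_right (hκ _ ▸ Commute.map (lp_commute fun n =>
      hp _ _ ▸ proj_op (lev_gen _ s)) θ)
  have hU : ∀ s, ψ (a s) * κ (op H (gen s)) = θ (lpMap ((amp Y H).comp π) (b (a s)) *
      lpConst _ (op H (gen s))) := fun s => by rw [map_mul, hκ, hψ]
  obtain ⟨ζ, s1, s2, s3⟩ := abs_step hA ψ κ (fun x g => hκ _ ▸ hc x _ fun _ y => amp_op y g)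
    (fun x => hκ _ ▸ hc x _ fun _ y => amp_shift y) (p1 0) (p1 1 3)
    (by
      rw [← mul_assoc, ← (p0 1 t).eq, mul_assoc, mul_assoc, hκ, ← map_mul, ← map_mul]
      congr 2
      refine lp.ext (funext fun n => ?_)
      change p 1 n * shift H = shift H * p 0 n
      rw [hp, hp]
      exact proj_shift (k n))
    (by
      rw [← map_mul]
      congr 1
      refine lp.ext (funext fun n => ?_)
      change p 0 n * p 0 n = p 0 n
      rw [hp, proj_mul])
    ((NonUnitalStarAlgHom.norm_apply_le θ _).trans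
      (lp.norm_le_of_forall_le zero_le_one fun n => hp _ _ ▸ norm_proj _)) (Ω := Ω)
    (ultra_one hl (hk.mono fun n h => h.1))
    (sub_eq_zero.1 (norm_le_zero_iff.1 (ultra_le hl _ (hk.mono fun n h => by
      rw [hp, add_zero, h.2.1, sub_self, norm_zero]))))
    fun s => hU s ▸ ultra_le hl _ (hk.mono fun n h => h.2.2.1 s)
  simp only [hU] at s3
  obtain ⟨n, n1, w, n2, n3⟩ := (hk.and (descend hd hl s1 s2 s3)).exists
  change ∀ s, ‖amp Y H (π (b (a s) n)) (op H (gen s) (p 1 n w)) - p 1 n w‖ < 1e-8 at n3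
  rw [hp] at n2 n3
  have e := app_of (proj_mul (H := H) (lev (k n + 1))) w
  generalize proj H (lev (k n + 1)) w = w at n2 n3 e
  refine n1.2.2.2 ⟨((‖w‖⁻¹ : ℝ) : ℂ) • w, ?_, by rw [map_smul, e], fun s => ?_⟩
  · rw [norm_smul, Complex.norm_real, norm_inv, norm_norm, inv_mul_cancel₀ (by linarith)]
  · rw [map_smul, map_smul, ← smul_sub, norm_smul, Complex.norm_real, norm_inv, norm_norm]
    exact (mul_le_of_le_one_left (norm_nonneg _) (inv_le_one_of_one_le₀ n2.le)).trans (n3 s).le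

theorem good_zero (hA : Rels a t q) (φ : A →⋆ₐ[ℂ] Ultrapower ω B) (hq : φ q ≠ 0)
    (π : B →⋆ₐ[ℂ] (H →L[ℂ] H)) (hπ : ∀ x, ∃ v, ‖v‖ ≤ 1 ∧ ‖x‖ ≤ ‖π x v‖)
    (b : A → lp (fun _ : ℕ => B) ∞) (hb : ∀ x, toUP ω B (b x) = φ x) :
    ∀ᶠ n in (ω : Filter ℕ), Good (fun s => π (b (a s) n)) 1e-8 0 := by
  classical
  rw [← hb, Ne, toUP_zero, Metric.tendsto_nhds] at hq
  push Not at hq
  obtain ⟨c, hc, h1⟩ := hq
  have h2 : ∀ s, ∀ᶠ n in (ω : Filter ℕ),
      ‖ch ((gen s).a (pt 1)) • (b (a s) n * b q n) - b q n‖ < 1e-8 * c := fun s =>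
    (toUP_zero (b := ch ((gen s).a (pt 1)) • (b (a s) * b q) - b q)).1 (by
      rw [map_sub, map_smul, map_mul, hb, hb, ← map_mul, ← map_smul, hA.eig, sub_self])
      |>.eventually (gt_mem_nhds (by positivity))
  filter_upwards [h1, eventually_all.2 h2] with n n1 n2
  obtain ⟨v, v1, v2⟩ := hπ (b q n)
  rw [dist_zero_right, norm_norm] at n1
  have p : 0 < ‖π (b q n) v‖ := by linarith
  refine ⟨((‖π (b q n) v‖⁻¹ : ℝ) : ℂ) • lp.single 2 (pt 1) (π (b q n) v), ?_,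
    (proj_eq_iff _ _).2 fun χ hχ => ?_, fun s => ?_⟩
  · rw [norm_smul, Complex.norm_real, norm_inv, norm_norm, lp.norm_single (by norm_num),
      inv_mul_cancel₀ p.ne']
  · rw [lp.coeFn_smul, Pi.smul_apply, lp.single_apply_ne _ _ _ fun e : χ = pt 1 => hχ (e ▸ lev_pt),
      smul_zero]
  · have e : amp Y H (π (b (a s) n)) (op H (gen s) (lp.single 2 (pt 1) (π (b q n) v))) -
        lp.single 2 (pt 1) (π (b q n) v) = lp.single 2 (pt 1)
          (π (ch ((gen s).a (pt 1)) • (b (a s) n * b q n) - b q n) v) := by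
      ext χ
      rw [lp.coeFn_sub, Pi.sub_apply, amp_apply, op_apply]
      by_cases h : χ = pt 1
      · rw [h, gen_pt, lp.single_apply_self, lp.single_apply_self]
        simp
      · rw [lp.single_apply_ne _ _ _ h, lp.single_apply_ne _ _ _ h, lp.single_apply_ne _ _ _
          fun e => h ((gen s).s.injective (e.trans (gen_pt s _).symm))]
        simp
    rw [map_smul, map_smul, ← smul_sub, e, norm_smul, Complex.norm_real, norm_inv, norm_norm,
      lp.norm_single (by norm_num), inv_mul_le_iff₀ p]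
    have := (π _).le_of_opNorm_le ((NonUnitalStarAlgHom.norm_apply_le π _).trans (n2 s).le) v
    have := mul_le_of_le_one_right (show 0 ≤ 1e-8 * c by positivity) v1
    nlinarith

theorem no_embed (hA : Rels a t q) (φ : A →⋆ₐ[ℂ] Ultrapower ω B) {s₁ s₂ : B}
    (h1 : star s₁ * s₁ = 1) (h2 : star s₂ * s₂ = 1) (h3 : s₁ * star s₁ + s₂ * star s₂ = 1)
    (h4 : (StarAlgebra.adjoin ℂ {s₁, s₂}).topologicalClosure = ⊤) : φ q = 0 := by
  by_contra hq
  obtain ⟨H, _, _, _, π, hπ⟩ := exists_faithful B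
  have : Nontrivial H := by
    obtain ⟨v, -, hv⟩ := hπ 1
    refine ⟨v, 0, fun e => ?_⟩
    rw [e, map_zero, norm_zero, norm_one] at hv
    linarith
  choose b hb using fun x => toUP_surj ω (φ x)
  have h5 : ∀ s, ∀ᶠ n in (ω : Filter ℕ), ‖star (b (a s) n) * b (a s) n - 1‖ < 1e-8 := fun s =>
    (toUP_zero (b := star (b (a s)) * b (a s) - 1)).1 (by
      rw [map_sub, map_mul, map_star, hb, ← map_star, ← map_mul, (hA.sys.un s).iso, map_one,
        map_one, sub_self]) |>.eventually (gt_mem_nhds (by norm_num))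
  obtain ⟨n, n1, n2, n3⟩ := ((good_zero hA φ hq π hπ b hb).and ((good_succ hA φ π b hb).and
    (eventually_all.2 h5))).exists
  have o : star s₂ * s₁ = 0 := by
    have := congrArg (fun z => star s₁ * z * s₁) h3
    simp only [mul_add, add_mul, mul_one, ← mul_assoc, h1, one_mul, add_eq_left] at this
    rw [← CStarRing.star_mul_self_eq_zero_iff, star_mul, star_star, ← mul_assoc, this]
  have o' : star s₁ * s₂ = 0 := by simpa using congrArg star o
  refine no_good (S := fun i => π (cond i s₁ s₂)) ⟨fun i j => ?_, ?_⟩ (fun s => ?_) (fun s => ?_)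
    fun k => Nat.rec n1 n2 k
  · cases i <;> cases j <;> simp [← map_star, ← map_mul, h1, h2, o, o']
  · simp [← map_star, ← map_mul, ← map_add, h3]
  · refine map_mem_closure (AddMonoidHomClass.continuous_of_bound π 1 fun x => by
      simpa using NonUnitalStarAlgHom.norm_apply_le π x) (h4.ge (StarSubalgebra.mem_top)) fun x hx => ?_
    refine StarAlgebra.adjoin_le (S := (StarAlgebra.adjoin ℂ _).comap π) ?_ hx
    rintro y (rfl | rfl)
    exacts [StarAlgebra.subset_adjoin ℂ _ ⟨true, rfl⟩, StarAlgebra.subset_adjoin ℂ _ ⟨false, rfl⟩]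
  · refine (NonUnitalStarAlgHom.norm_apply_le π _).trans ?_
    have := norm_sub_norm_le (star (b (a s) n) * b (a s) n) 1
    rw [CStarRing.norm_star_mul_self, norm_one] at this
    nlinarith [n3 s, norm_nonneg (b (a s) n)]

/-- The generators of the algebra that does not embed. -/
noncomputable def gens : Set (L2 Y ℂ →L[ℂ] L2 Y ℂ) :=
  Set.range (fun s => op ℂ (gen s)) ∪ {shift ℂ, proj ℂ (· = pt (-1))}

/-- The algebra that does not embed. -/
noncomputable def alg : StarSubalgebra ℂ (L2 Y ℂ →L[ℂ] L2 Y ℂ) :=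
  (StarAlgebra.adjoin ℂ gens).topologicalClosure

theorem mem_alg {x : L2 Y ℂ →L[ℂ] L2 Y ℂ} (h : x ∈ gens) : x ∈ alg :=
  StarSubalgebra.le_topologicalClosure _ (StarAlgebra.subset_adjoin ℂ _ h)

theorem alg_rels : ∃ (a : Fin 4 → alg) (t q : alg), Rels a t q ∧ q ≠ 0 := by
  refine ⟨fun s => ⟨_, mem_alg (Or.inl ⟨s, rfl⟩)⟩, ⟨_, mem_alg (Or.inr (Or.inl rfl))⟩,
    ⟨_, mem_alg (Or.inr (Or.inr rfl))⟩,
    ⟨Sys.of_map (alg.subtype : alg →* (L2 Y ℂ →L[ℂ] L2 Y ℂ)) (fun _ => rfl) Subtype.val_injective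
      (sys_gen.map (op ℂ) op_star), Subtype.ext (gE_shift 0 1 rfl (by norm_num)),
      Subtype.ext (gE_shift 1 2 rfl (by norm_num)), Subtype.ext (gE_shift 2 0 rfl (by norm_num)),
      Subtype.ext ?_,
      Subtype.ext (Commute.map (comm_ED (j := 1) (i := 0) (by norm_num)) (op ℂ)),
      Subtype.ext (Commute.map (comm_ED (j := 2) (i := 0) (by norm_num)) (op ℂ)),
      Subtype.ext shift_iso, fun s => Subtype.ext (gen_q s)⟩, fun h => ?_⟩
  · refine Eq.trans ?_ cm_shift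
    simp only [cm, map_mul, op_star]
    rfl
  · classical
    have := congrArg (fun T : alg => T.1 (lp.single 2 (pt (-1)) 1) (pt (-1))) h
    simp [proj_apply] at this

theorem alg_sep : TopologicalSpace.SeparableSpace alg := by
  refine TopologicalSpace.IsSeparable.separableSpace (TopologicalSpace.IsSeparable.closure ?_)
  have f : gens.Finite := (Set.finite_range _).union (Set.toFinite _)
  have c : (Submonoid.closure (gens ∪ star gens) : Set (L2 Y ℂ →L[ℂ] L2 Y ℂ)).Countable := by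
    have := (f.union f.star).countable.to_subtype
    rw [Submonoid.closure_eq_mrange]
    exact Set.countable_range _
  refine c.isSeparable.span (R := ℂ) |>.mono fun x hx => ?_
  rw [← Algebra.adjoin_eq_span]
  exact hx

end Vale.Agent.P083
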